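import Mathlib

/-! The pointwise algebra: a symmetric cubic form compatible with a norm gradient vanishes. -/

namespace Vale.Agent.Lib.P084

open scoped Topology
open Filter Set

lemma lin_coeff_zero {c : ℝ} {r : ℝ → ℝ} (hr : Continuous r)
    (h : ∀ t : ℝ, c * t + t ^ 2 * r t ≤ 0) : c = 0 := by
  have h0 : Tendsto (fun t : ℝ => c + t * r t) (𝓝 0) (𝓝 c) := by
    have : Continuous (fun t : ℝ => c + t * r t) := continuous_const.add (continuous_id.mul hr)
    simpa using this.tendsto 0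
  apply le_antisymm
  · refine le_of_tendsto (h0.mono_left (nhdsWithin_le_nhds (s := Ioi 0))) ?_
    filter_upwards [self_mem_nhdsWithin] with t ht
    have ht' : (0 : ℝ) < t := ht
    have h1 := h t
    have h2 : t * (c + t * r t) ≤ 0 := by nlinarith
    by_contra hcon
    push Not at hcon
    have := mul_pos ht' hcon
    linarith
  · refine ge_of_tendsto (h0.mono_left (nhdsWithin_le_nhds (s := Iio 0))) ?_
    filter_upwards [self_mem_nhdsWithin] with t ht
    have ht' : t < 0 := ht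
    have h1 := h t
    have h2 : t * (c + t * r t) ≤ 0 := by nlinarith
    by_contra hcon
    push Not at hcon
    have := mul_pos_of_neg_of_neg ht' hcon
    linarith

lemma crit_of_max {G0 G1 : ℝ} {R S : ℝ → ℝ} (hR : Continuous R) (hS : Continuous S)
    (h : ∀ t : ℝ, (G0 + t * G1 + t ^ 2 * R t) ^ 2 ≤ G0 ^ 2 * (1 + t ^ 2 * S t)) :
    G0 * G1 = 0 := by
  have : 2 * (G0 * G1) = 0 := by
    refine lin_coeff_zero (r := fun t => (G1 + t * R t) ^ 2 + 2 * G0 * R t - G0 ^ 2 * S t) ?_ ?_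
    · fun_prop
    · intro t
      have := h t
      nlinarith
  linarith

variable {X : Type*} [NormedAddCommGroup X] [NormedSpace ℝ X]

/-- Maximum of a homogeneous function on the `Q`-unit sphere of a subspace. -/
lemma exists_max_on [FiniteDimensional ℝ X] (W : Submodule ℝ X) (Q : X →L[ℝ] X →L[ℝ] ℝ)
    (hQ : ∀ z ∈ W, z ≠ 0 → 0 < Q z z) (hW : ∃ z ∈ W, z ≠ 0) (P : X → ℝ) (hP : Continuous P)
    (d : ℕ) (hd : d ≠ 0) (hhom : ∀ (t : ℝ) (z : X), P (t • z) = t ^ d * P z) :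
    ∃ w ∈ W, Q w w = 1 ∧ ∀ z ∈ W, (P z) ^ 2 ≤ (P w) ^ 2 * (Q z z) ^ d := by
  have : ProperSpace X := FiniteDimensional.proper_real X
  set K : Set X := Metric.sphere (0 : X) 1 ∩ (W : Set X) with hK
  have hKc : IsCompact K :=
    (isCompact_sphere (0 : X) 1).inter_right W.closed_of_finiteDimensional
  have hunit : ∀ z : X, z ≠ 0 → ‖‖z‖⁻¹ • z‖ = 1 := fun z hz => by
    simpa using norm_smul_inv_norm (𝕜 := ℝ) hz
  have hKne : K.Nonempty := by
    obtain ⟨z, hz, hz0⟩ := hW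
    exact ⟨‖z‖⁻¹ • z, by simpa using hunit z hz0, W.smul_mem _ hz⟩
  have hK0 : ∀ z ∈ K, z ≠ 0 := by
    intro z hz h0
    have := hz.1
    simp [h0] at this
  set Φ : X → ℝ := fun z => (P z) ^ 2 / (Q z z) ^ d with hΦ
  have hΦc : ContinuousOn Φ K := by
    refine ContinuousOn.div (hP.pow 2).continuousOn ?_ ?_
    · have : Continuous fun z : X => (Q z z) ^ d := by fun_prop
      exact this.continuousOn
    · intro z hz
      exact pow_ne_zero _ (hQ z hz.2 (hK0 z hz)).ne'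
  obtain ⟨w₀, hw₀, hmax⟩ := hKc.exists_isMaxOn hKne hΦc
  have hΦhom : ∀ (t : ℝ) (z : X), t ≠ 0 → Φ (t • z) = Φ z := by
    intro t z ht
    simp only [hΦ, hhom, map_smul, smul_apply, smul_eq_mul]
    by_cases hq : Q z z = 0
    · simp [hq, hd]
    · field_simp
      rw [mul_pow, ← pow_mul, ← pow_mul, mul_comm d 2]
      ring
  have hq₀ : 0 < Q w₀ w₀ := hQ w₀ hw₀.2 (hK0 w₀ hw₀)
  set s : ℝ := (Real.sqrt (Q w₀ w₀))⁻¹ with hs
  have hspos : 0 < s := inv_pos.2 (Real.sqrt_pos.2 hq₀)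
  have hsq : s ^ 2 * Q w₀ w₀ = 1 := by
    rw [hs, inv_pow, Real.sq_sqrt hq₀.le]
    field_simp
  refine ⟨s • w₀, W.smul_mem _ hw₀.2, ?_, ?_⟩
  · simp only [map_smul, smul_apply, smul_eq_mul]
    nlinarith
  · intro z hz
    have hw1 : Q (s • w₀) (s • w₀) = 1 := by
      simp only [map_smul, smul_apply, smul_eq_mul]
      nlinarith
    have hΦw : Φ (s • w₀) = (P (s • w₀)) ^ 2 := by
      show (P (s • w₀)) ^ 2 / (Q (s • w₀) (s • w₀)) ^ d = _
      rw [hw1]; simp
    by_cases hz0 : z = 0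
    · have hP0 : P z = 0 := by
        have := hhom 0 z
        rw [zero_smul, hz0] at this
        rw [hz0, this]
        simp [hd]
      rw [hP0, hz0]
      simp [hd]
    · have hzK : ‖z‖⁻¹ • z ∈ K := ⟨by simpa using hunit z hz0, W.smul_mem _ hz⟩
      have h1 : Φ (‖z‖⁻¹ • z) ≤ Φ w₀ := hmax hzK
      rw [hΦhom _ _ (inv_ne_zero (norm_ne_zero_iff.2 hz0))] at h1
      rw [← hΦhom s w₀ hspos.ne', hΦw] at h1
      have hqz : 0 < (Q z z) ^ d := pow_pos (hQ z hz hz0) _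
      exact (div_le_iff₀ hqz).1 h1

section Main

variable (H : Submodule ℝ X) (Q : X →L[ℝ] X →L[ℝ] ℝ) (C : X →L[ℝ] X →L[ℝ] X)

/-- Hypotheses on the pair `(Q, C)` over the subspace `H`. -/
structure AlgHyp : Prop where
  Qsymm : ∀ a b, Q a b = Q b a
  Qpos : ∀ a ∈ H, a ≠ 0 → 0 < Q a a
  CH : ∀ a ∈ H, ∀ b ∈ H, C a b ∈ H
  Csymm : ∀ a b, C a b = C b a
  Tsymm : ∀ a b c, Q (C a b) c = Q (C a c) b

variable {H Q C}

lemma AlgHyp.nondeg (hA : AlgHyp H Q C) {z : X} (hz : z ∈ H) (h : ∀ m ∈ H, Q z m = 0) : z = 0 := by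
  by_contra h0
  have := hA.Qpos z hz h0
  rw [h z hz] at this
  exact lt_irrefl _ this

/-- Critical point of the cubic on a subspace. -/
lemma AlgHyp.crit3 [FiniteDimensional ℝ X] (hA : AlgHyp H Q C) (W : Submodule ℝ X)
    (hWH : W ≤ H) (hW : ∃ z ∈ W, z ≠ 0) :
    ∃ w ∈ W, Q w w = 1 ∧ (∀ z ∈ W, Q w z = 0 → Q (C w w) z = 0) ∧
      (Q (C w w) w = 0 → ∀ z ∈ W, Q (C z z) z = 0) := by
  have hs12 : ∀ a b c, Q (C a b) c = Q (C b a) c := fun a b c => by rw [hA.Csymm]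
  have hs23 := hA.Tsymm
  obtain ⟨w, hw, hw1, hmax⟩ := exists_max_on W Q (fun z hz => hA.Qpos z (hWH hz)) hW
    (fun z => Q (C z z) z) (by fun_prop) 3 (by norm_num) (by
      intro t z
      simp only [map_smul, smul_apply, smul_eq_mul]
      ring)
  have hzero : Q (C w w) w = 0 → ∀ z ∈ W, Q (C z z) z = 0 := by
    intro h0 z hz
    have := hmax z hz
    simp only [h0] at this
    have h2 : (Q (C z z) z) ^ 2 ≤ 0 := by simpa using this
    nlinarith [sq_nonneg (Q (C z z) z)]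
  refine ⟨w, hw, hw1, ?_, hzero⟩
  intro z hz hwz
  set T0 := Q (C w w) w with hT0
  set T1 := Q (C w w) z with hT1
  set T2 := Q (C w z) z with hT2
  set T3 := Q (C z z) z with hT3
  set q := Q z z with hq
  have hzw : Q z w = 0 := by rw [hA.Qsymm]; exact hwz
  have e1 : Q (C w z) w = T1 := by rw [hs23]
  have e2 : Q (C z w) w = T1 := by rw [hs12, hs23]
  have e3 : Q (C z w) z = T2 := by rw [hs12]
  have e4 : Q (C z z) w = T2 := by rw [hs23]; exact e3
  have hexp : ∀ t : ℝ, Q (C (w + t • z) (w + t • z)) (w + t • z) = T0 + t * (3 * T1) + t ^ 2 * (3 * T2 + t * T3) := by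
    intro t
    simp only [map_add, map_smul, add_apply, smul_apply, smul_eq_mul, e1, e2, e3, e4, ← hT0, ← hT1, ← hT2, ← hT3]
    ring
  have hqexp : ∀ t : ℝ, Q (w + t • z) (w + t • z) = 1 + t ^ 2 * q := by
    intro t
    simp only [map_add, map_smul, add_apply, smul_apply, smul_eq_mul, hw1, hwz, hzw, ← hq]
    ring
  have hmain : T0 * (3 * T1) = 0 := by
    refine crit_of_max (R := fun t => 3 * T2 + t * T3)
      (S := fun t => 3 * q + 3 * t ^ 2 * q ^ 2 + t ^ 4 * q ^ 3) (by fun_prop) (by fun_prop) ?_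
    intro t
    have := hmax (w + t • z) (W.add_mem hw (W.smul_mem _ hz))
    simp only [hexp, hqexp] at this
    calc _ ≤ T0 ^ 2 * (1 + t ^ 2 * q) ^ 3 := this
      _ = _ := by ring
  rcases mul_eq_zero.1 hmain with h0 | h1
  · have h2 := hzero h0
    have h3 := h2 (w + (1 : ℝ) • z) (W.add_mem hw (W.smul_mem _ hz))
    have h4 := h2 (w + (-1 : ℝ) • z) (W.add_mem hw (W.smul_mem _ hz))
    have h5 := h2 z hz
    rw [hexp] at h3 h4
    rw [← hT3] at h5
    nlinarith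
  · linarith

/-- Critical point of a quadratic form `T (v, ·, ·)` on a subspace. -/
lemma AlgHyp.crit2 [FiniteDimensional ℝ X] (hA : AlgHyp H Q C) (v : X) (W : Submodule ℝ X)
    (hWH : W ≤ H) (hW : ∃ z ∈ W, z ≠ 0) :
    ∃ w ∈ W, Q w w = 1 ∧ (∀ z ∈ W, Q w z = 0 → Q (C v w) z = 0) ∧
      (Q (C v w) w = 0 → ∀ z ∈ W, Q (C v z) z = 0) := by
  have hs23 := hA.Tsymm
  obtain ⟨w, hw, hw1, hmax⟩ := exists_max_on W Q (fun z hz => hA.Qpos z (hWH hz)) hW
    (fun z => Q (C v z) z) (by fun_prop) 2 (by norm_num) (by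
      intro t z
      simp only [map_smul, smul_apply, smul_eq_mul]
      ring)
  have hzero : Q (C v w) w = 0 → ∀ z ∈ W, Q (C v z) z = 0 := by
    intro h0 z hz
    have := hmax z hz
    simp only [h0] at this
    have h2 : (Q (C v z) z) ^ 2 ≤ 0 := by simpa using this
    nlinarith [sq_nonneg (Q (C v z) z)]
  refine ⟨w, hw, hw1, ?_, hzero⟩
  intro z hz hwz
  set T0 := Q (C v w) w with hT0
  set T1 := Q (C v w) z with hT1
  set T2 := Q (C v z) z with hT2
  set q := Q z z with hq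
  have hzw : Q z w = 0 := by rw [hA.Qsymm]; exact hwz
  have e1 : Q (C v z) w = T1 := by rw [hs23]
  have hexp : ∀ t : ℝ, Q (C v (w + t • z)) (w + t • z) = T0 + t * (2 * T1) + t ^ 2 * T2 := by
    intro t
    simp only [map_add, map_smul, add_apply, smul_apply, smul_eq_mul, e1, ← hT0, ← hT1, ← hT2]
    ring
  have hqexp : ∀ t : ℝ, Q (w + t • z) (w + t • z) = 1 + t ^ 2 * q := by
    intro t
    simp only [map_add, map_smul, add_apply, smul_apply, smul_eq_mul, hw1, hwz, hzw, ← hq]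
    ring
  have hmain : T0 * (2 * T1) = 0 := by
    refine crit_of_max (R := fun _ => T2)
      (S := fun t => 2 * q + t ^ 2 * q ^ 2) (by fun_prop) (by fun_prop) ?_
    intro t
    have := hmax (w + t • z) (W.add_mem hw (W.smul_mem _ hz))
    simp only [hexp, hqexp] at this
    calc _ ≤ T0 ^ 2 * (1 + t ^ 2 * q) ^ 2 := this
      _ = _ := by ring
  rcases mul_eq_zero.1 hmain with h0 | h1
  · have h2 := hzero h0
    have h3 := h2 (w + (1 : ℝ) • z) (W.add_mem hw (W.smul_mem _ hz))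
    have h5 := h2 z hz
    rw [hexp] at h3
    rw [← hT2] at h5
    nlinarith
  · linarith

lemma ev_ne (a : ℝ) : ∀ᶠ ε in 𝓝[≠] (0 : ℝ), ε ≠ a := by
  by_cases h : a = 0
  · subst h; exact self_mem_nhdsWithin
  · exact (eventually_ne_nhds (Ne.symm h)).filter_mono nhdsWithin_le_nhds

/-- Testing against an orthonormal pair and its complement. -/
lemma AlgHyp.eq_of_test (hA : AlgHyp H Q C) {v w Z : X} (hv : v ∈ H) (hw : w ∈ H)
    (hv1 : Q v v = 1) (hw1 : Q w w = 1) (hvw : Q v w = 0) (hZ : Z ∈ H) {α β : ℝ}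
    (h1 : Q Z v = α) (h2 : Q Z w = β)
    (h3 : ∀ m ∈ H, Q v m = 0 → Q w m = 0 → Q Z m = 0) : Z = α • v + β • w := by
  have hwv : Q w v = 0 := by rw [hA.Qsymm]; exact hvw
  have hY : Z - (α • v + β • w) ∈ H :=
    H.sub_mem hZ (H.add_mem (H.smul_mem _ hv) (H.smul_mem _ hw))
  have hzero := hA.nondeg hY (by
    intro m hm
    set m' : X := m - (Q v m) • v - (Q w m) • w with hm'
    have hm'H : m' ∈ H := H.sub_mem (H.sub_mem hm (H.smul_mem _ hv)) (H.smul_mem _ hw)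
    have h4 : Q v m' = 0 := by
      simp only [hm', map_sub, map_smul, hv1, hvw, smul_eq_mul]; ring
    have h5 : Q w m' = 0 := by
      simp only [hm', map_sub, map_smul, hw1, hwv, smul_eq_mul]; ring
    have h6 := h3 m' hm'H h4 h5
    have h7 : Q Z m = (Q v m) * α + (Q w m) * β := by
      have : Q Z m' = Q Z m - (Q v m) * Q Z v - (Q w m) * Q Z w := by
        simp only [hm', map_sub, map_smul, smul_eq_mul]
      rw [h6, h1, h2] at this
      linarith
    simp only [map_sub, map_add, map_smul, sub_apply, add_apply, smul_apply, smul_eq_mul, h7]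
    ring)
  exact sub_eq_zero.1 hzero

/-- The main algebraic statement: under the chord relation the cubic form vanishes. -/
theorem AlgHyp.vanish [FiniteDimensional ℝ X] (hA : AlgHyp H Q C)
    (ν : X → X →L[ℝ] ℝ) (hνpos : ∀ u ∈ H, u ≠ 0 → 0 < ν u u)
    (hνc : ∀ u ∈ H, u ≠ 0 → ContinuousAt ν u)
    (hR : ∀ u ∈ H, u ≠ 0 → ∀ m ∈ H, Q m u = 0 → ν u (C m u) = 0)
    (hdim : 2 ≤ Module.finrank ℝ H) : ∀ a ∈ H, ∀ b ∈ H, C a b = 0 := by
  have hs12 : ∀ a b c, Q (C a b) c = Q (C b a) c := fun a b c => by rw [hA.Csymm]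
  have hs23 := hA.Tsymm
  -- the case of a vanishing cubic on `H`
  by_cases hp : ∀ z ∈ H, Q (C z z) z = 0
  · have hp2 : ∀ a ∈ H, ∀ b ∈ H, Q (C a b) b = 0 := by
      intro a ha b hb
      have h1 := hp (a + b) (H.add_mem ha hb)
      have h2 := hp (a + (-1 : ℝ) • b) (H.add_mem ha (H.smul_mem _ hb))
      have h3 := hp a ha
      have e1 : Q (C b a) a = Q (C a a) b := by rw [hs12, hs23]
      have e2 : Q (C a b) a = Q (C a a) b := by rw [hs23]
      have e3 : Q (C b a) b = Q (C a b) b := by rw [hs12]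
      have e4 : Q (C b b) a = Q (C a b) b := by rw [hs23, e3]
      simp only [map_add, map_smul, add_apply, smul_apply, smul_eq_mul, e1, e2, e3, e4] at h1 h2
      nlinarith
    have hp3 : ∀ a ∈ H, ∀ b ∈ H, ∀ c ∈ H, Q (C a b) c = 0 := by
      intro a ha b hb c hc
      have h1 := hp2 a ha (b + c) (H.add_mem hb hc)
      have h2 := hp2 a ha b hb
      have h3 := hp2 a ha c hc
      have e1 : Q (C a c) b = Q (C a b) c := by rw [hs23]
      simp only [map_add, add_apply, e1] at h1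
      linarith
    intro a ha b hb
    exact hA.nondeg (hA.CH a ha b hb) (fun m hm => hp3 a ha b hb m hm)
  exfalso
  push Not at hp
  obtain ⟨z₀, hz₀, hz₀ne⟩ := hp
  have hz₀0 : z₀ ≠ 0 := by
    rintro rfl
    simp at hz₀ne
  obtain ⟨v₁, hv₁, hv₁1, hv₁crit, hv₁zero⟩ := hA.crit3 H le_rfl ⟨z₀, hz₀, hz₀0⟩
  have hμ₁ : Q (C v₁ v₁) v₁ ≠ 0 := fun h0 => hz₀ne (hv₁zero h0 z₀ hz₀)
  set μ₁ := Q (C v₁ v₁) v₁ with hμ₁def
  -- the orthogonal complement of `v₁` in `H`
  set V₁ : Submodule ℝ X := H ⊓ LinearMap.ker (Q v₁ : X →ₗ[ℝ] ℝ) with hV₁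
  have hV₁mem : ∀ z, z ∈ V₁ ↔ z ∈ H ∧ Q v₁ z = 0 := by
    intro z
    simp [hV₁, Submodule.mem_inf, LinearMap.mem_ker]
  have hV₁H : V₁ ≤ H := inf_le_left
  have hv₁0 : v₁ ≠ 0 := by
    rintro rfl
    simp at hv₁1
  have hV₁ne : ∃ z ∈ V₁, z ≠ 0 := by
    have hv' : (⟨v₁, hv₁⟩ : H) ≠ 0 := by
      intro h
      exact hv₁0 (congrArg Subtype.val h)
    obtain ⟨y, hy⟩ := exists_linearIndependent_pair_of_one_lt_finrank (R := ℝ) (M := H)
      (by omega) hv'
    refine ⟨(y : X) - (Q v₁ y) • v₁, ?_, ?_⟩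
    · rw [hV₁mem]
      refine ⟨H.sub_mem y.2 (H.smul_mem _ hv₁), ?_⟩
      simp only [map_sub, map_smul, hv₁1, smul_eq_mul]; ring
    · intro h0
      have := LinearIndependent.pair_iff.1 hy (-(Q v₁ y)) 1 (by
        ext
        simpa [sub_eq_add_neg, add_comm] using h0)
      simpa using this.2
  -- first step: the quadratic form `T (v₁, ·, ·)` vanishes on `V₁`
  have hκ : ∀ z ∈ V₁, Q (C v₁ z) z = 0 := by
    obtain ⟨w, hw, hw1, hwcrit, hwzero⟩ := hA.crit2 v₁ V₁ hV₁H hV₁ne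
    have hwH : w ∈ H := hV₁H hw
    have hv₁w : Q v₁ w = 0 := ((hV₁mem w).1 hw).2
    have hZ : C v₁ w = (0 : ℝ) • v₁ + (Q (C v₁ w) w) • w := by
      refine hA.eq_of_test hv₁ hwH hv₁1 hw1 hv₁w (hA.CH _ hv₁ _ hwH) ?_ rfl ?_
      · rw [hs23]; exact hv₁crit w hwH hv₁w
      · intro m hm hm1 hm2
        exact hwcrit m ((hV₁mem m).2 ⟨hm, hm1⟩) hm2
    have hw0 : w ≠ 0 := by
      rintro rfl
      simp at hw1
    have h1 := hR w hwH hw0 v₁ hv₁ hv₁w
    rw [hZ] at h1
    simp only [zero_smul, zero_add, map_smul, smul_eq_mul] at h1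
    have h2 := hνpos w hwH hw0
    have h3 : Q (C v₁ w) w = 0 := by
      rcases mul_eq_zero.1 h1 with h | h
      · exact h
      · exact absurd h h2.ne'
    exact hwzero h3
  have hκ2 : ∀ a ∈ V₁, ∀ b ∈ V₁, Q (C v₁ a) b = 0 := by
    intro a ha b hb
    have h1 := hκ (a + b) (V₁.add_mem ha hb)
    have h2 := hκ a ha
    have h3 := hκ b hb
    have e1 : Q (C v₁ b) a = Q (C v₁ a) b := by rw [hs23]
    simp only [map_add, add_apply, e1] at h1
    linarith
  -- second step: a critical point of the cubic on `V₁`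
  obtain ⟨w, hw, hw1, hwcrit, -⟩ := hA.crit3 V₁ hV₁H hV₁ne
  have hwH : w ∈ H := hV₁H hw
  have hv₁w : Q v₁ w = 0 := ((hV₁mem w).1 hw).2
  have hwv₁ : Q w v₁ = 0 := by rw [hA.Qsymm]; exact hv₁w
  set μ := Q (C w w) w with hμ
  have hC1 : C v₁ v₁ = μ₁ • v₁ + (0 : ℝ) • w := by
    refine hA.eq_of_test hv₁ hwH hv₁1 hw1 hv₁w (hA.CH _ hv₁ _ hv₁) rfl ?_ ?_
    · exact hv₁crit w hwH hv₁w
    · intro m hm hm1 _
      exact hv₁crit m hm hm1
  have hC2 : C v₁ w = (0 : ℝ) • v₁ + (0 : ℝ) • w := by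
    refine hA.eq_of_test hv₁ hwH hv₁1 hw1 hv₁w (hA.CH _ hv₁ _ hwH) ?_ ?_ ?_
    · rw [hs23]; exact hv₁crit w hwH hv₁w
    · exact hκ w hw
    · intro m hm hm1 _
      exact hκ2 w hw m ((hV₁mem m).2 ⟨hm, hm1⟩)
  have hC3 : C w w = (0 : ℝ) • v₁ + μ • w := by
    refine hA.eq_of_test hv₁ hwH hv₁1 hw1 hv₁w (hA.CH _ hwH _ hwH) ?_ rfl ?_
    · have e : Q (C w w) v₁ = Q (C v₁ w) w := by rw [hs23, hs12]
      rw [e]; exact hκ w hw
    · intro m hm hm1 hm2
      exact hwcrit m ((hV₁mem m).2 ⟨hm, hm1⟩) hm2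
  simp only [zero_smul, zero_add, add_zero] at hC1 hC2 hC3
  have hC2' : C w v₁ = 0 := by rw [hA.Csymm]; exact hC2
  -- the vector killing the gradients in the plane
  set r : X := (-μ₁) • v₁ + μ • w with hr
  have hrH : r ∈ H := H.add_mem (H.smul_mem _ hv₁) (H.smul_mem _ hwH)
  have hplane : ∀ c s : ℝ, c ≠ 0 → s ≠ 0 → ν (c • v₁ + s • w) r = 0 := by
    intro c s hc hs
    set u : X := c • v₁ + s • w with hu
    have huH : u ∈ H := H.add_mem (H.smul_mem _ hv₁) (H.smul_mem _ hwH)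
    have hQu : Q u u = c ^ 2 + s ^ 2 := by
      simp only [hu, map_add, map_smul, add_apply, smul_apply, smul_eq_mul, hv₁1, hw1, hv₁w, hwv₁]
      ring
    have hu0 : u ≠ 0 := by
      intro h0
      rw [h0] at hQu
      simp only [map_zero] at hQu
      have : 0 < c ^ 2 + s ^ 2 := by positivity
      linarith
    set m : X := (-s) • v₁ + c • w with hm
    have hmH : m ∈ H := H.add_mem (H.smul_mem _ hv₁) (H.smul_mem _ hwH)
    have hQm : Q m u = 0 := by
      simp only [hu, hm, map_add, map_smul, add_apply, smul_apply, smul_eq_mul, hv₁1, hw1, hv₁w, hwv₁]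
      ring
    have hCm : C m u = (s * c) • r := by
      simp only [hu, hm, hr, map_add, map_smul, add_apply, smul_apply, hC1, hC2, hC2', hC3,
        smul_zero, add_zero, zero_add, smul_add, smul_smul]
      congr 1
      · congr 1; ring
      · congr 1; ring
    have h1 := hR u huH hu0 m hmH hQm
    rw [hCm, map_smul, smul_eq_mul] at h1
    rcases mul_eq_zero.1 h1 with h | h
    · exact absurd h (mul_ne_zero hs hc)
    · exact h
  have hr0 : r ≠ 0 := by
    intro h0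
    have hQr : Q r r = μ₁ ^ 2 + μ ^ 2 := by
      simp only [hr, map_add, map_smul, add_apply, smul_apply, smul_eq_mul, hv₁1, hw1, hv₁w, hwv₁]
      ring
    rw [h0] at hQr
    simp only [map_zero] at hQr
    have : 0 < μ₁ ^ 2 := by positivity
    nlinarith [sq_nonneg μ]
  have hlim : Tendsto (fun ε : ℝ => ν ((-μ₁ + ε) • v₁ + (μ + ε) • w) r) (𝓝[≠] 0) (𝓝 (ν r r)) := by
    have hcont : Continuous (fun ε : ℝ => (-μ₁ + ε) • v₁ + (μ + ε) • w) := by fun_prop
    have h1 : Tendsto (fun ε : ℝ => (-μ₁ + ε) • v₁ + (μ + ε) • w) (𝓝[≠] 0) (𝓝 r) := by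
      have := hcont.tendsto 0
      simp only [add_zero] at this
      exact this.mono_left nhdsWithin_le_nhds
    have h2 : Tendsto ν (𝓝 r) (𝓝 (ν r)) := hνc r hrH hr0
    have h3 := h2.comp h1
    exact ((ContinuousLinearMap.apply ℝ ℝ r).continuous.tendsto (ν r)).comp h3
  have hzero : ∀ᶠ ε in 𝓝[≠] (0 : ℝ), ν ((-μ₁ + ε) • v₁ + (μ + ε) • w) r = 0 := by
    filter_upwards [ev_ne μ₁, ev_ne (-μ)] with ε h1 h2
    refine hplane _ _ ?_ ?_
    · intro h; apply h1; linarith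
    · intro h; apply h2; linarith
  have hfin : ν r r = 0 := tendsto_nhds_unique (hlim.congr' hzero) tendsto_const_nhds
  exact (hνpos r hrH hr0).ne' hfin

end Main

end Vale.Agent.Lib.P084
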