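/-
The definitions used by the statement of the union theorem on Tingley's problem.
-/
import Mathlib

open Metric
open scoped ZeroAtInfty

namespace Vale.Agent.Lib.P084.Inf

variable {X : Type*} [NormedAddCommGroup X] [NormedSpace ℝ X]

/-- A set is dentable: at every scale, some point of it is not in the closed convex hull of the
part of the set at distance at least the scale from that point. -/
def IsDentableSet (A : Set X) : Prop :=
  ∀ ε > 0, ∃ x ∈ A, x ∉ closure (convexHull ℝ (A \ ball x ε))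

end Vale.Agent.Lib.P084.Inf

namespace Vale.Agent.Lib.P084.RNP

/-- A dyadic tree of unit vectors on one face of the unit sphere, with increments of norm `δ`: nodes
`a s` indexed by finite words `s`, all with `χ (a s) = 1` for one functional `χ` of norm at most one;
each node is the midpoint of its two children `a (true :: s)`, `a (false :: s)`, and its distance to
the child `a (true :: s)` (hence to both children) is `δ`. -/
def IsFaceTree (X : Type*) [NormedAddCommGroup X] [NormedSpace ℝ X] (δ : ℝ) : Prop :=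
  ∃ (χ : X →L[ℝ] ℝ) (a : List Bool → X), ‖χ‖ ≤ 1 ∧
    ∀ s, ‖a s‖ = 1 ∧ χ (a s) = 1 ∧ a (true :: s) + a (false :: s) = (2 : ℝ) • a s ∧
      ‖a (true :: s) - a s‖ = δ

end Vale.Agent.Lib.P084.RNP

namespace Vale.Agent.Lib.P084.FaceDist

open Vale.Agent.Lib.P084.Inf

variable {X : Type*} [NormedAddCommGroup X] [NormedSpace ℝ X]

/-- `θ` has slope one on the unit sphere up to `ε`: it lies in the dual unit ball and from every unit
vector `x` one reaches the top of `θ` (up to `ε`) at the cost of the height difference `1 - θ x` (up to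
`ε`). -/
def IsSlopeOne (ε : ℝ) (θ : X →L[ℝ] ℝ) : Prop :=
  ‖θ‖ ≤ 1 ∧ ∀ x : X, ‖x‖ = 1 → ∃ u : X, ‖u‖ = 1 ∧ 1 - ε ≤ θ u ∧ ‖x - u‖ ≤ 1 - θ x + ε

/-- The functionals of slope one separate the points of `X` modulo the subspace `N`: for each `v ∉ N`
there is `c > 0` such that for each `ε > 0` some functional of slope one up to `ε` has `|θ v| ≥ c`. -/
def SlopeSeparatesMod (N : Submodule ℝ X) : Prop :=
  ∀ v : X, v ∉ N → ∃ c : ℝ, 0 < c ∧ ∀ ε : ℝ, 0 < ε → ∃ θ : X →L[ℝ] ℝ, IsSlopeOne ε θ ∧ c ≤ |θ v|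

/-- All nonempty subsets of faces `{x : ‖x‖ = 1, χ x = 1}`, `‖χ‖ ≤ 1`, of the unit sphere that lie in one
coset of `N` are dentable. -/
def FacesDentableMod (N : Submodule ℝ X) : Prop :=
  ∀ χ : X →L[ℝ] ℝ, ‖χ‖ ≤ 1 → ∀ A : Set X, A ⊆ {x : X | ‖x‖ = 1 ∧ χ x = 1} → A.Nonempty →
    (∀ a ∈ A, ∀ b ∈ A, a - b ∈ N) → IsDentableSet A

end Vale.Agent.Lib.P084.FaceDist

namespace Vale.Agent.Lib.P084.LpSum

/-- `P` is an `L_p`-projection: `X = ker P ⊕_p range P`. -/
structure IsLpSummand {X : Type*} [NormedAddCommGroup X] [NormedSpace ℝ X] (p : ℝ)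
    (P : X →L[ℝ] X) : Prop where
  idem : ∀ x, P (P x) = P x
  pyth : ∀ x, ‖x‖ ^ p = ‖x - P x‖ ^ p + ‖P x‖ ^ p

end Vale.Agent.Lib.P084.LpSum

namespace Vale.Agent.Lib.P084.C0

universe u

/-- `X` is linearly isometric to the space of continuous functions vanishing at infinity on an
infinite locally compact metric space `K` with values in a nonzero real normed space `E`, with the
sup norm. -/
def IsVectorC0 (X : Type u) [NormedAddCommGroup X] [NormedSpace ℝ X] : Prop :=
  ∃ (K : Type u) (E : Type u) (_ : MetricSpace K) (_ : LocallyCompactSpace K) (_ : Infinite K)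
    (_ : NormedAddCommGroup E) (_ : NormedSpace ℝ E) (_ : Nontrivial E),
    Nonempty (X ≃ₗᵢ[ℝ] C₀(K, E))

end Vale.Agent.Lib.P084.C0

namespace Vale.Agent.Lib.P084.SepRed

universe u

/-- `X` is linearly isometric to a space `C(K, E)`, `K` infinite compact Hausdorff, `E` a nonzero
real normed space. -/
def IsVectorCKH (X : Type u) [NormedAddCommGroup X] [NormedSpace ℝ X] : Prop :=
  ∃ (K : Type u) (E : Type u) (_ : TopologicalSpace K) (_ : CompactSpace K) (_ : T2Space K)
    (_ : Infinite K) (_ : NormedAddCommGroup E) (_ : NormedSpace ℝ E) (_ : Nontrivial E),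
    Nonempty (X ≃ₗᵢ[ℝ] C(K, E))

end Vale.Agent.Lib.P084.SepRed

namespace Vale.Agent.Lib.P084.Flat

variable {X : Type*} [NormedAddCommGroup X] [NormedSpace ℝ X]

/-- The norm coincides with the linear functional `φ` on a whole neighbourhood of `y`. -/
def Cone (φ : X →L[ℝ] ℝ) (y : X) : Prop := ∃ r : ℝ, 0 < r ∧ ∀ z, ‖z - y‖ < r → ‖z‖ = φ z

/-- Flat points are dense in the unit sphere of `X`. -/
def FlatDense (X : Type*) [NormedAddCommGroup X] [NormedSpace ℝ X] : Prop :=
  ∀ x : X, ‖x‖ = 1 → ∀ ε : ℝ, 0 < ε → ∃ p : X, ‖p‖ = 1 ∧ ‖p - x‖ < ε ∧ ∃ φ : X →L[ℝ] ℝ, Cone φ p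

end Vale.Agent.Lib.P084.Flat

namespace Vale.Agent.Lib.P084.BallFace

variable {X : Type*} [NormedAddCommGroup X] [NormedSpace ℝ X]

/-- `w` is a unit vector and the unit vectors cofacial with `w` are exactly `w + ball J`, with the sup
norm on the span of `w` and `J`. -/
structure IsBallFace (w : X) (J : Submodule ℝ X) : Prop where
  norm_w : ‖w‖ = 1
  orth : ∀ x ∈ J, ‖w + x‖ = max 1 ‖x‖
  face : ∀ z : X, ‖z‖ = 1 → ‖z + w‖ = 2 → z - w ∈ J

/-- Subspaces of ball faces come arbitrarily close to any two vectors. -/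
def HasBallFaces (X : Type*) [NormedAddCommGroup X] [NormedSpace ℝ X] : Prop :=
  ∀ (x₁ x₂ : X) (ε : ℝ), 0 < ε → ∃ (w : X) (J : Submodule ℝ X), IsBallFace w J ∧
    (∃ a ∈ J, ‖x₁ - a‖ < ε) ∧ (∃ b ∈ J, ‖x₂ - b‖ < ε)

end Vale.Agent.Lib.P084.BallFace
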