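import Vale.Agent.Lib.P084.NormCalc

/-! Differential identities for a radial extension of a sphere isometry. -/

namespace Vale.Agent.Lib.P084

open scoped ContDiff Topology
open Set Filter

variable {X : Type*} [NormedAddCommGroup X] [NormedSpace ℝ X]
variable {Y : Type*} [NormedAddCommGroup Y] [NormedSpace ℝ Y]

/-- A positively homogeneous norm-preserving `C^2` map preserving chord lengths. -/
structure RadialMap (F : X → Y) : Prop where
  contDiff : ∀ a, a ≠ 0 → ContDiffAt ℝ 2 F a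
  norm_eq : ∀ a, ‖F a‖ = ‖a‖
  smul : ∀ t : ℝ, 0 < t → ∀ a, F (t • a) = t • F a
  sub_eq : ∀ a b, a ≠ 0 → b ≠ 0 → ‖‖b‖ • a - ‖a‖ • b‖ = ‖‖b‖ • F a - ‖a‖ • F b‖
  add_eq : ∀ a b, a ≠ 0 → b ≠ 0 → ‖‖b‖ • a + ‖a‖ • b‖ = ‖‖b‖ • F a + ‖a‖ • F b‖

/-- First derivative of the map. -/
noncomputable def DF (F : X → Y) (a : X) : X →L[ℝ] Y := fderiv ℝ F a

/-- Second derivative of the map. -/
noncomputable def D2F (F : X → Y) (a : X) : X →L[ℝ] X →L[ℝ] Y := fderiv ℝ (DF F) a

namespace RadialMap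

variable {F : X → Y} (h : RadialMap F)
include h

lemma hasFDerivAt_F {a : X} (ha : a ≠ 0) : HasFDerivAt F (DF F a) a :=
  ((h.contDiff a ha).differentiableAt (by norm_num)).hasFDerivAt

lemma contDiffAt_DF {a : X} (ha : a ≠ 0) : ContDiffAt ℝ 1 (DF F) a :=
  (h.contDiff a ha).fderiv_right (by norm_num)

lemma hasFDerivAt_DF {a : X} (ha : a ≠ 0) : HasFDerivAt (DF F) (D2F F a) a :=
  ((h.contDiffAt_DF ha).differentiableAt (by norm_num)).hasFDerivAt

lemma continuousAt_D2F {a : X} (ha : a ≠ 0) : ContinuousAt (D2F F) a :=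
  ((h.contDiffAt_DF ha).fderiv_right (m := 0) (by norm_num)).continuousAt

lemma F_ne_zero {a : X} (ha : a ≠ 0) : F a ≠ 0 := by
  intro h0
  have := h.norm_eq a
  rw [h0, norm_zero] at this
  exact ha (norm_eq_zero.1 this.symm)

/-- Chain rule for the norm. -/
lemma chain1 (hX : SmoothNorm X) (hY : SmoothNorm Y) {a : X} (ha : a ≠ 0) (v : X) :
    dN (F a) (DF F a v) = dN a v := by
  have h1 : HasFDerivAt (fun z => ‖F z‖) ((dN (F a)).comp (DF F a)) a :=
    (hasFDerivAt_norm hY (h.F_ne_zero ha)).comp a (h.hasFDerivAt_F ha)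
  have h2 : HasFDerivAt (fun z => ‖F z‖) (dN a) a :=
    (hasFDerivAt_norm hX ha).congr_of_eventuallyEq (Eventually.of_forall fun z => h.norm_eq z)
  have := congrArg (fun L : X →L[ℝ] ℝ => L v) (h1.unique h2)
  simpa using this

lemma DF_smul {a : X} (ha : a ≠ 0) {t : ℝ} (ht : 0 < t) : DF F (t • a) = DF F a := by
  have hta : t • a ≠ 0 := smul_ne_zero ht.ne' ha
  have h1 : HasFDerivAt (fun z : X => F (t • z)) ((DF F (t • a)).comp (t • ContinuousLinearMap.id ℝ X)) a :=
    (h.hasFDerivAt_F hta).comp a ((hasFDerivAt_id a).const_smul t)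
  have h2 : HasFDerivAt (fun z : X => F (t • z)) (t • DF F a) a := by
    refine ((h.hasFDerivAt_F ha).const_smul t).congr_of_eventuallyEq ?_
    exact Eventually.of_forall fun z => h.smul t ht z
  have h3 := h1.unique h2
  ext v
  have h4 := congrArg (fun L : X →L[ℝ] Y => L v) h3
  simp only [ContinuousLinearMap.comp_apply, smul_apply, ContinuousLinearMap.id_apply, map_smul] at h4
  exact smul_right_injective Y ht.ne' h4

lemma DF_self {a : X} (ha : a ≠ 0) : DF F a a = F a := by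
  have hl : HasDerivAt (fun t : ℝ => t • a) a 1 := by
    simpa using (hasDerivAt_id (1 : ℝ)).smul_const a
  have h1 : HasDerivAt (fun t : ℝ => F (t • a)) (DF F a a) 1 := by
    have h' := (h.hasFDerivAt_F (a := (1 : ℝ) • a) (by simpa using ha)).comp_hasDerivAt (1 : ℝ) hl
    simpa [Function.comp_def] using h'
  have h2 : HasDerivAt (fun t : ℝ => F (t • a)) (F a) 1 := by
    have h' : HasDerivAt (fun t : ℝ => t • F a) (F a) 1 := by
      simpa using (hasDerivAt_id (1 : ℝ)).smul_const (F a)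
    refine h'.congr_of_eventuallyEq ?_
    filter_upwards [lt_mem_nhds (zero_lt_one)] with t ht
    exact h.smul t ht a
  exact h1.unique h2

lemma D2F_self {a : X} (ha : a ≠ 0) (w : X) : D2F F a a w = 0 := by
  have hl : HasDerivAt (fun t : ℝ => t • a) a 1 := by
    simpa using (hasDerivAt_id (1 : ℝ)).smul_const a
  have h1 : HasDerivAt (fun t : ℝ => DF F (t • a)) (D2F F a a) 1 := by
    have h' := (h.hasFDerivAt_DF (a := (1 : ℝ) • a) (by simpa using ha)).comp_hasDerivAt (1 : ℝ) hl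
    simpa [Function.comp_def] using h'
  have h2 : HasDerivAt (fun t : ℝ => DF F (t • a)) (0 : X →L[ℝ] Y) 1 := by
    refine (hasDerivAt_const (1 : ℝ) (DF F a)).congr_of_eventuallyEq ?_
    filter_upwards [lt_mem_nhds (zero_lt_one)] with t ht
    exact h.DF_smul ha ht
  have := h1.unique h2
  simp [this]

lemma D2F_symm {a : X} (ha : a ≠ 0) (v w : X) : D2F F a v w = D2F F a w v :=
  ((h.contDiff a ha).isSymmSndFDerivAt (by simp [minSmoothness_of_isRCLikeNormedField])) v w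

lemma D2F_smul {a : X} (ha : a ≠ 0) {t : ℝ} (ht : 0 < t) (v w : X) :
    D2F F (t • a) v w = t⁻¹ • D2F F a v w := by
  have hta : t • a ≠ 0 := smul_ne_zero ht.ne' ha
  have h1 : HasFDerivAt (fun z : X => DF F (t • z)) ((D2F F (t • a)).comp (t • ContinuousLinearMap.id ℝ X)) a :=
    (h.hasFDerivAt_DF hta).comp a ((hasFDerivAt_id a).const_smul t)
  have h2 : HasFDerivAt (fun z : X => DF F (t • z)) (D2F F a) a := by
    refine (h.hasFDerivAt_DF ha).congr_of_eventuallyEq ?_
    filter_upwards [isOpen_ne.mem_nhds ha] with z hz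
    exact h.DF_smul hz ht
  have h3 := h1.unique h2
  have h4 : D2F F a v w = t • D2F F (t • a) v w := by
    rw [← h3]; simp
  rw [h4, smul_smul, inv_mul_cancel₀ ht.ne', one_smul]

/-- Second order chain rule. -/
lemma chain2 (hX : SmoothNorm X) (hY : SmoothNorm Y) {a : X} (ha : a ≠ 0) (v w : X) :
    d2N (F a) (DF F a v) (DF F a w) + dN (F a) (D2F F a v w) = d2N a v w := by
  have h1 : HasFDerivAt (fun z => dN (F z)) ((d2N (F a)).comp (DF F a)) a :=
    (hasFDerivAt_dN hY (h.F_ne_zero ha)).comp a (h.hasFDerivAt_F ha)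
  have h2 := hasFDerivAt_apply_const (h.hasFDerivAt_DF ha) w
  have h3 := h1.clm_apply h2
  have h4 := hasFDerivAt_apply_const (hasFDerivAt_dN hX ha) w
  have h5 : HasFDerivAt (fun z => dN (F z) (DF F z w)) ((d2N a).flip w) a := by
    refine h4.congr_of_eventuallyEq ?_
    filter_upwards [isOpen_ne.mem_nhds ha] with z hz
    exact h.chain1 hX hY hz w
  have h6 := congrArg (fun L : X →L[ℝ] ℝ => L v) (h3.unique h5)
  simp only [add_apply, ContinuousLinearMap.comp_apply, ContinuousLinearMap.flip_apply] at h6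
  linarith

end RadialMap

section Mixed

variable {Z : Type*} [NormedAddCommGroup Z] [NormedSpace ℝ Z]

/-- Partial derivative in `a` of the symmetric chord expression. -/
lemma mix_partial (hX : SmoothNorm X) (hZ : SmoothNorm Z) {x : X} {y : Z} {h₀ : X → Z}
    {C : X →L[ℝ] Z} (hx : ‖x‖ = 1) (hh : HasFDerivAt h₀ C x) (hhx : h₀ x = y) {b : X}
    (hP : ‖b‖ • y + h₀ b ≠ 0) :
    ∃ L : X →L[ℝ] ℝ, HasFDerivAt (fun a => ‖‖b‖ • h₀ a + ‖a‖ • h₀ b‖) L x ∧
      ∀ v, L v = dN (‖b‖ • y + h₀ b) (‖b‖ • C v + (dN x v) • h₀ b) := by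
  have hx0 : x ≠ 0 := by
    rintro rfl
    simp at hx
  have hG : HasFDerivAt (fun a => ‖b‖ • h₀ a + ‖a‖ • h₀ b)
      (‖b‖ • C + (dN x).smulRight (h₀ b)) x :=
    (hh.const_smul ‖b‖).add ((hasFDerivAt_norm hX hx0).smul_const (h₀ b))
  have hval : ‖b‖ • h₀ x + ‖x‖ • h₀ b = ‖b‖ • y + h₀ b := by
    rw [hhx, hx, one_smul]
  have hP' : ‖b‖ • h₀ x + ‖x‖ • h₀ b ≠ 0 := by rw [hval]; exact hP
  refine ⟨_, (hasFDerivAt_norm hZ hP').comp x hG, fun v => ?_⟩
  simp only [ContinuousLinearMap.comp_apply, add_apply, smul_apply,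
    ContinuousLinearMap.smulRight_apply, hval]

/-- Derivative in `b` of the partial derivative above. -/
lemma mix_second (hX : SmoothNorm X) (hZ : SmoothNorm Z) {x : X} {y : Z} {h₀ : X → Z}
    {C : X →L[ℝ] Z} (hx : ‖x‖ = 1) (hy : ‖y‖ = 1) (hh : HasFDerivAt h₀ C x) (hhx : h₀ x = y)
    (hC : ∀ u, dN y (C u) = dN x u) (v : X) :
    ∃ L : X →L[ℝ] ℝ,
      HasFDerivAt (fun b => dN (‖b‖ • y + h₀ b) (‖b‖ • C v + (dN x v) • h₀ b)) L x ∧
      ∀ w, L w = (1 / 2) * d2N y (C w) (C v) + 2 * (dN x w * dN x v) := by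
  have hx0 : x ≠ 0 := by
    rintro rfl
    simp at hx
  have hy0 : y ≠ 0 := by
    rintro rfl
    simp at hy
  have hP : HasFDerivAt (fun b => ‖b‖ • y + h₀ b) ((dN x).smulRight y + C) x :=
    ((hasFDerivAt_norm hX hx0).smul_const y).add hh
  have hR : HasFDerivAt (fun b => ‖b‖ • C v + (dN x v) • h₀ b)
      ((dN x).smulRight (C v) + (dN x v) • C) x :=
    ((hasFDerivAt_norm hX hx0).smul_const (C v)).add (hh.const_smul (dN x v))
  have hval : ‖x‖ • y + h₀ x = (2 : ℝ) • y := by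
    rw [hx, hhx, one_smul, two_smul]
  have hval0 : ‖x‖ • y + h₀ x ≠ 0 := by
    rw [hval]; exact smul_ne_zero (by norm_num) hy0
  have hd : HasFDerivAt (fun b => dN (‖b‖ • y + h₀ b))
      ((d2N (‖x‖ • y + h₀ x)).comp ((dN x).smulRight y + C)) x :=
    (hasFDerivAt_dN hZ hval0).comp x hP
  have hD : HasFDerivAt (fun b => dN (‖b‖ • y + h₀ b) (‖b‖ • C v + (dN x v) • h₀ b))
      ((dN (‖x‖ • y + h₀ x)).comp ((dN x).smulRight (C v) + (dN x v) • C) +
        ((d2N (‖x‖ • y + h₀ x)).comp ((dN x).smulRight y + C)).flip (‖x‖ • C v + (dN x v) • h₀ x)) x :=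
    hd.clm_apply hR
  refine ⟨_, hD, fun w => ?_⟩
  have e1 : dN (‖x‖ • y + h₀ x) = dN y := by
    rw [hval, dN_smul hZ hy0 (by norm_num)]
  have e2 : ∀ p q, d2N (‖x‖ • y + h₀ x) p q = (1 / 2) * d2N y p q := by
    intro p q
    rw [hval, d2N_smul hZ hy0 (by norm_num)]
    norm_num
  have e3 : ‖x‖ • C v + (dN x v) • h₀ x = C v + (dN x v) • y := by
    rw [hx, hhx, one_smul]
  have e4 : ∀ q, d2N y q y = 0 := fun q => by
    rw [d2N_symm hZ hy0, d2N_self hZ hy0]
  have e5 : ∀ q, d2N y y q = 0 := d2N_self hZ hy0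
  simp only [add_apply, ContinuousLinearMap.comp_apply, ContinuousLinearMap.flip_apply,
    ContinuousLinearMap.smulRight_apply, smul_apply, e1, e2, e3]
  simp only [map_add, map_smul, smul_eq_mul, hC, add_apply, smul_apply, e4, e5]
  ring

end Mixed

namespace RadialMap

variable {F : X → Y} (h : RadialMap F)
include h

/-- Preservation of the second derivative of the norm at unit vectors. -/
lemma d2N_preserve_unit (hX : SmoothNorm X) (hY : SmoothNorm Y) {x : X} (hx : ‖x‖ = 1) (w v : X) :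
    d2N (F x) (DF F x w) (DF F x v) = d2N x w v := by
  have hx0 : x ≠ 0 := by
    rintro rfl
    simp at hx
  have hy : ‖F x‖ = 1 := by rw [h.norm_eq, hx]
  have hF := h.hasFDerivAt_F hx0
  obtain ⟨LY, hLY, hLYv⟩ := mix_second hX hY hx hy hF rfl (fun u => h.chain1 hX hY hx0 u) v
  obtain ⟨LX, hLX, hLXv⟩ := mix_second (h₀ := fun z : X => z) (C := ContinuousLinearMap.id ℝ X)
    hX hX hx hx (hasFDerivAt_id x) rfl (fun u => rfl) v
  -- nonvanishing near `x`
  have hnzY : ∀ᶠ b in 𝓝 x, ‖b‖ • F x + F b ≠ 0 := by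
    have hc : ContinuousAt (fun b => ‖b‖ • F x + F b) x :=
      (continuous_norm.continuousAt.smul continuousAt_const).add hF.continuousAt
    refine hc.eventually (isOpen_ne.mem_nhds ?_)
    have hy0 : F x ≠ 0 := h.F_ne_zero hx0
    show ‖x‖ • F x + F x ≠ 0
    rw [hx, one_smul, ← two_smul ℝ]
    exact smul_ne_zero (by norm_num) hy0
  have hnzX : ∀ᶠ b in 𝓝 x, ‖b‖ • x + b ≠ 0 := by
    have hc : ContinuousAt (fun b => ‖b‖ • x + b) x :=
      (continuous_norm.continuousAt.smul continuousAt_const).add continuousAt_id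
    refine hc.eventually (isOpen_ne.mem_nhds ?_)
    show ‖x‖ • x + x ≠ 0
    rw [hx, one_smul, ← two_smul ℝ]
    exact smul_ne_zero (by norm_num) hx0
  have heq : ∀ᶠ b in 𝓝 x, dN (‖b‖ • x + b) (‖b‖ • v + (dN x v) • b) =
      dN (‖b‖ • F x + F b) (‖b‖ • DF F x v + (dN x v) • F b) := by
    filter_upwards [hnzX, hnzY, isOpen_ne.mem_nhds hx0] with b hb1 hb2 hb0
    obtain ⟨L1, hL1, hL1v⟩ := mix_partial (h₀ := fun z : X => z) (C := ContinuousLinearMap.id ℝ X)
      hX hX hx (hasFDerivAt_id x) rfl hb1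
    obtain ⟨L2, hL2, hL2v⟩ := mix_partial hX hY hx hF rfl hb2
    have h3 : HasFDerivAt (fun a => ‖‖b‖ • a + ‖a‖ • b‖) L2 x := by
      refine hL2.congr_of_eventuallyEq ?_
      filter_upwards [isOpen_ne.mem_nhds hx0] with a ha
      exact h.add_eq a b ha hb0
    have h4 := hL1.unique h3
    have h5 := hL1v v
    have h6 := hL2v v
    rw [h4, h6] at h5
    simpa using h5.symm
  have h7 : HasFDerivAt (fun b => dN (‖b‖ • x + b) (‖b‖ • v + (dN x v) • b)) LY x :=
    hLY.congr_of_eventuallyEq heq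
  have h8 := hLX.unique h7
  have h9 := hLXv w
  rw [h8, hLYv w] at h9
  simp only [ContinuousLinearMap.id_apply] at h9
  linarith

/-- Preservation of the second derivative of the norm everywhere away from the origin. -/
lemma d2N_preserve (hX : SmoothNorm X) (hY : SmoothNorm Y) {a : X} (ha : a ≠ 0) (w v : X) :
    d2N (F a) (DF F a w) (DF F a v) = d2N a w v := by
  have hn : 0 < ‖a‖ := norm_pos_iff.2 ha
  set x : X := ‖a‖⁻¹ • a with hx
  have hx1 : ‖x‖ = 1 := by
    simpa using norm_smul_inv_norm (𝕜 := ℝ) ha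
  have hx0 : x ≠ 0 := by
    rintro h0
    rw [h0] at hx1
    simp at hx1
  have haeq : a = ‖a‖ • x := by
    rw [hx, smul_smul, mul_inv_cancel₀ hn.ne', one_smul]
  have h1 := h.d2N_preserve_unit hX hY hx1 w v
  have h2 : DF F a = DF F x := by
    rw [haeq]; exact h.DF_smul hx0 (by simpa using hn)
  have h3 : F a = ‖a‖ • F x := by
    rw [← h.smul _ hn, ← haeq]
  have h4 : d2N a w v = ‖a‖⁻¹ * d2N x w v := by
    conv_lhs => rw [haeq]
    rw [d2N_smul hX hx0 (by simpa using hn)]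
  rw [h2, h3, d2N_smul hY (h.F_ne_zero hx0) hn, h1, h4]

end RadialMap

end Vale.Agent.Lib.P084
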