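import Vale.Agent.Lib.P084.Calculus

/-! Second order expansion of chords through a unit vector. -/

namespace Vale.Agent.Lib.P084

open scoped ContDiff Topology
open Set Filter Asymptotics

/-- Blow up of a curve through the origin. -/
lemma K_lemma {E : Type*} [NormedAddCommGroup E] [NormedSpace ℝ E] {Z Z1 : ℝ → E} {Z2 : E}
    (hZ0 : Z 0 = 0) (h1 : ∀ᶠ t in 𝓝 (0 : ℝ), HasDerivAt Z (Z1 t) t) (h2 : HasDerivAt Z1 Z2 0) :
    HasDerivAt (fun t : ℝ => if t = 0 then Z1 0 else t⁻¹ • Z t) ((1 / 2 : ℝ) • Z2) 0 := by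
  obtain ⟨ε, hε, hball⟩ := Metric.eventually_nhds_iff_ball.1 h1
  set s : Set ℝ := Metric.ball (0 : ℝ) ε with hs
  have hsc : Convex ℝ s := convex_ball _ _
  have h0s : (0 : ℝ) ∈ s := Metric.mem_ball_self hε
  set ρ : ℝ → E := fun t => Z t - t • Z1 0 - (t ^ 2 / 2) • Z2 with hρdef
  set ρ' : ℝ → E := fun t => Z1 t - Z1 0 - t • Z2 with hρ'def
  have hρ : ∀ t ∈ s, HasDerivWithinAt ρ (ρ' t) s t := by
    intro t ht
    have a1 := hball t ht
    have a2 : HasDerivAt (fun t : ℝ => t • Z1 0) (Z1 0) t := by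
      simpa using (hasDerivAt_id t).smul_const (Z1 0)
    have a3 : HasDerivAt (fun t : ℝ => (t ^ 2 / 2) • Z2) (t • Z2) t := by
      have : HasDerivAt (fun t : ℝ => t ^ 2 / 2) t t := by
        simpa using (hasDerivAt_pow 2 t).div_const 2
      exact this.smul_const Z2
    exact ((a1.sub a2).sub a3).hasDerivWithinAt
  have hnhds : 𝓝[s] (0 : ℝ) = 𝓝 0 := nhdsWithin_eq_nhds.2 (Metric.ball_mem_nhds _ hε)
  have hρ' : ρ' =o[𝓝[s] 0] (fun t : ℝ => (t - 0) ^ 1) := by
    rw [hnhds]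
    have := h2.isLittleO
    simpa [hρ'def] using this
  have key := hsc.isLittleO_pow_succ_real h0s hρ hρ'
  rw [hnhds] at key
  have hρ0 : ρ 0 = 0 := by simp [hρdef, hZ0]
  rw [hasDerivAt_iff_isLittleO, isLittleO_iff]
  intro c hc
  have hkey := isLittleO_iff.1 key hc
  filter_upwards [hkey] with t ht
  by_cases ht0 : t = 0
  · simp [ht0]
  · have e1 : (if t = 0 then Z1 0 else t⁻¹ • Z t) - (if (0 : ℝ) = 0 then Z1 0 else (0 : ℝ)⁻¹ • Z 0) -
        (t - 0) • (1 / 2 : ℝ) • Z2 = t⁻¹ • ρ t := by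
      simp only [ht0, if_false, if_true, sub_zero, hρdef, smul_sub, smul_smul]
      rw [inv_mul_cancel₀ ht0, one_smul]
      have : t⁻¹ * (t ^ 2 / 2) = t * (1 / 2) := by field_simp
      rw [this]
    rw [e1, norm_smul, norm_inv]
    simp only [hρ0, sub_zero, Real.norm_eq_abs, pow_succ, pow_zero, one_mul, abs_mul] at ht ⊢
    have ht1 : 0 < |t| := abs_pos.2 ht0
    calc |t|⁻¹ * ‖ρ t‖ ≤ |t|⁻¹ * (c * (|t| * |t|)) := by gcongr
      _ = c * |t| := by field_simp

variable {X : Type*} [NormedAddCommGroup X] [NormedSpace ℝ X]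
variable {Z : Type*} [NormedAddCommGroup Z] [NormedSpace ℝ Z]

lemma eventually_line {P : X → Prop} {x a' : X} (h : ∀ᶠ a in 𝓝 x, P a) :
    ∀ᶠ t in 𝓝 (0 : ℝ), P (x + t • a') := by
  have hc : ContinuousAt (fun t : ℝ => x + t • a') 0 := by fun_prop
  have h0 : (fun t : ℝ => x + t • a') 0 = x := by simp
  exact hc.eventually (by rw [h0]; exact h)

lemma hasDerivAt_line (x a' : X) (t : ℝ) : HasDerivAt (fun t : ℝ => x + t • a') a' t := by
  simpa using ((hasDerivAt_id t).smul_const a').const_add x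

/-- Data of one product term of the chord curve. -/
lemma term_data (hX : SmoothNorm X) {x : X} (hx : ‖x‖ = 1) {a' b' : X} (hb : dN x b' = 0)
    {G : X → Z} {DG : X → X →L[ℝ] Z} {D2 : X →L[ℝ] X →L[ℝ] Z}
    (hG1 : ∀ᶠ a in 𝓝 x, HasFDerivAt G (DG a) a) (hG2 : HasFDerivAt DG D2 x) :
    ∃ T1 : ℝ → Z, (∀ᶠ t in 𝓝 (0 : ℝ), HasDerivAt (fun t : ℝ => ‖x + t • b'‖ • G (x + t • a')) (T1 t) t) ∧
      T1 0 = DG x a' ∧ HasDerivAt T1 ((d2N x b' b') • G x + D2 a' a') 0 := by
  have hx0 : x ≠ 0 := by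
    rintro rfl
    simp at hx
  have hne : ∀ᶠ a in 𝓝 x, a ≠ 0 := isOpen_ne.mem_nhds hx0
  refine ⟨fun t => ‖x + t • b'‖ • DG (x + t • a') a' + (dN (x + t • b') b') • G (x + t • a'), ?_, ?_, ?_⟩
  · filter_upwards [eventually_line (a' := b') hne, eventually_line (a' := a') hG1] with t h1 h2
    have hn := hasDerivAt_norm_line hX (p := x) (v := b') (t := t) h1
    have hg : HasDerivAt (fun t : ℝ => G (x + t • a')) (DG (x + t • a') a') t :=
      h2.comp_hasDerivAt t (hasDerivAt_line x a' t)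
    exact hn.smul hg
  · simp [hx, hb]
  · have h0x : x + (0 : ℝ) • a' = x := by simp
    have h0x' : x + (0 : ℝ) • b' = x := by simp
    have hG0 : HasFDerivAt G (DG x) x := hG1.self_of_nhds
    have hn : HasDerivAt (fun t : ℝ => ‖x + t • b'‖) (dN x b') 0 := by
      have := hasDerivAt_norm_line hX (p := x) (v := b') (t := 0) (by simpa using hx0)
      simpa using this
    have hg : HasDerivAt (fun t : ℝ => G (x + t • a')) (DG x a') 0 := by
      have h1 : HasFDerivAt G (DG x) (x + (0 : ℝ) • a') := by rw [h0x]; exact hG0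
      exact h1.comp_hasDerivAt (0 : ℝ) (hasDerivAt_line x a' 0)
    have hdg : HasDerivAt (fun t : ℝ => DG (x + t • a') a') (D2 a' a') 0 := by
      have h1 : HasFDerivAt DG D2 (x + (0 : ℝ) • a') := by rw [h0x]; exact hG2
      have h2 := (hasFDerivAt_apply_const h1 a').comp_hasDerivAt (0 : ℝ) (hasDerivAt_line x a' 0)
      simpa [Function.comp_def] using h2
    have hdn : HasDerivAt (fun t : ℝ => dN (x + t • b') b') (d2N x b' b') 0 := by
      have h1 : HasFDerivAt dN (d2N x) (x + (0 : ℝ) • b') := by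
        rw [h0x']; exact hasFDerivAt_dN hX hx0
      have h2 := (hasFDerivAt_apply_const h1 b').comp_hasDerivAt (0 : ℝ) (hasDerivAt_line x b' 0)
      simpa [Function.comp_def] using h2
    have hsum := (hn.smul hdg).add (hdn.smul hg)
    refine hsum.congr_deriv ?_
    simp only [hx, hb, one_smul, zero_smul, add_zero]
    abel

/-- Data of the full chord curve. -/
lemma curve_data (hX : SmoothNorm X) {x : X} (hx : ‖x‖ = 1) {a' b' : X} (ha : dN x a' = 0)
    (hb : dN x b' = 0)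
    {G : X → Z} {DG : X → X →L[ℝ] Z} {D2 : X →L[ℝ] X →L[ℝ] Z}
    (hG1 : ∀ᶠ a in 𝓝 x, HasFDerivAt G (DG a) a) (hG2 : HasFDerivAt DG D2 x) :
    ∃ Z1 : ℝ → Z, (∀ᶠ t in 𝓝 (0 : ℝ), HasDerivAt
        (fun t : ℝ => ‖x + t • b'‖ • G (x + t • a') - ‖x + t • a'‖ • G (x + t • b')) (Z1 t) t) ∧
      Z1 0 = DG x a' - DG x b' ∧
      HasDerivAt Z1 ((d2N x b' b' - d2N x a' a') • G x + D2 a' a' - D2 b' b') 0 := by
  obtain ⟨T1, hT1, hT2, hT3⟩ := term_data hX hx (a' := a') hb hG1 hG2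
  obtain ⟨S1, hS1, hS2, hS3⟩ := term_data hX hx (a' := b') ha hG1 hG2
  refine ⟨fun t => T1 t - S1 t, ?_, by simp [hT2, hS2], ?_⟩
  · filter_upwards [hT1, hS1] with t h1 h2
    exact h1.sub h2
  · refine (hT3.sub hS3).congr_deriv ?_
    rw [sub_smul]
    abel

variable {Y : Type*} [NormedAddCommGroup Y] [NormedSpace ℝ Y]

namespace RadialMap

variable {F : X → Y} (h : RadialMap F)
include h

/-- First and second order comparison of chords through a unit vector. -/
theorem chord_main (hX : SmoothNorm X) (hY : SmoothNorm Y) {x : X} (hx : ‖x‖ = 1) {a' b' : X}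
    (ha : dN x a' = 0) (hb : dN x b' = 0) :
    ‖DF F x a' - DF F x b'‖ = ‖a' - b'‖ ∧
    (a' ≠ b' → dN (a' - b') ((d2N x b' b' - d2N x a' a') • x) =
      dN (DF F x a' - DF F x b')
        ((d2N x b' b' - d2N x a' a') • F x + D2F F x a' a' - D2F F x b' b')) := by
  have hx0 : x ≠ 0 := by
    rintro rfl
    simp at hx
  have hne : ∀ᶠ a in 𝓝 x, a ≠ 0 := isOpen_ne.mem_nhds hx0
  obtain ⟨ZX1, hZX1, hZX2, hZX3⟩ := curve_data (G := fun z : X => z)
    (DG := fun _ => ContinuousLinearMap.id ℝ X) (D2 := 0) hX hx ha hb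
    (Eventually.of_forall fun a => hasFDerivAt_id a) (hasFDerivAt_const _ _)
  obtain ⟨ZY1, hZY1, hZY2, hZY3⟩ := curve_data (G := F) (DG := DF F) (D2 := D2F F x) hX hx ha hb
    (by filter_upwards [hne] with a ha0 using h.hasFDerivAt_F ha0) (h.hasFDerivAt_DF hx0)
  have hKX := K_lemma (by simp) hZX1 hZX3
  have hKY := K_lemma (by simp) hZY1 hZY3
  set KX : ℝ → X := fun t : ℝ => if t = 0 then ZX1 0 else
    t⁻¹ • (‖x + t • b'‖ • (x + t • a') - ‖x + t • a'‖ • (x + t • b')) with hKXdef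
  set KY : ℝ → Y := fun t : ℝ => if t = 0 then ZY1 0 else
    t⁻¹ • (‖x + t • b'‖ • F (x + t • a') - ‖x + t • a'‖ • F (x + t • b')) with hKYdef
  have hval : KX 0 = a' - b' := by simp [hKXdef, hZX2]
  have hvalY : KY 0 = DF F x a' - DF F x b' := by simp [hKYdef, hZY2]
  have hnorm : ∀ᶠ t in 𝓝[≠] (0 : ℝ), ‖KX t‖ = ‖KY t‖ := by
    have h1 : ∀ᶠ t in 𝓝 (0 : ℝ), x + t • a' ≠ 0 := eventually_line hne
    have h2 : ∀ᶠ t in 𝓝 (0 : ℝ), x + t • b' ≠ 0 := eventually_line hne
    filter_upwards [h1.filter_mono nhdsWithin_le_nhds, h2.filter_mono nhdsWithin_le_nhds,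
      self_mem_nhdsWithin] with t ht1 ht2 ht3
    have ht0 : t ≠ 0 := ht3
    simp only [hKXdef, hKYdef, ht0, if_false]
    rw [norm_smul, norm_smul, h.sub_eq _ _ ht1 ht2]
  have hlimX : Tendsto (fun t => ‖KX t‖) (𝓝[≠] (0 : ℝ)) (𝓝 ‖KX 0‖) :=
    hKX.continuousAt.norm.tendsto.mono_left nhdsWithin_le_nhds
  have hlimY : Tendsto (fun t => ‖KY t‖) (𝓝[≠] (0 : ℝ)) (𝓝 ‖KY 0‖) :=
    hKY.continuousAt.norm.tendsto.mono_left nhdsWithin_le_nhds
  have hnorm0 : ‖KX 0‖ = ‖KY 0‖ := tendsto_nhds_unique (hlimX.congr' hnorm) hlimY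
  refine ⟨by rw [← hvalY, ← hval, hnorm0], fun hne' => ?_⟩
  have hX0 : KX 0 ≠ 0 := by
    rw [hval]; exact sub_ne_zero.2 hne'
  have hY0 : KY 0 ≠ 0 := by
    intro h0
    rw [h0, norm_zero] at hnorm0
    exact hX0 (norm_eq_zero.1 hnorm0)
  have hdX : HasDerivAt (fun t => ‖KX t‖) (dN (KX 0) ((1 / 2 : ℝ) • ((d2N x b' b' - d2N x a' a') • x + (0 : X →L[ℝ] X →L[ℝ] X) a' a' - (0 : X →L[ℝ] X →L[ℝ] X) b' b'))) 0 :=
    (hasFDerivAt_norm hX hX0).comp_hasDerivAt (0 : ℝ) hKX
  have hdY : HasDerivAt (fun t => ‖KY t‖) (dN (KY 0) ((1 / 2 : ℝ) • ((d2N x b' b' - d2N x a' a') • F x + D2F F x a' a' - D2F F x b' b'))) 0 :=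
    (hasFDerivAt_norm hY hY0).comp_hasDerivAt (0 : ℝ) hKY
  have hnorm1 : (fun t => ‖KX t‖) =ᶠ[𝓝 0] (fun t => ‖KY t‖) := by
    have hev := nhdsNE_sup_pure (0 : ℝ)
    rw [Filter.EventuallyEq, ← hev, eventually_sup]
    refine ⟨hnorm, ?_⟩
    rw [eventually_pure]
    exact hnorm0
  have hu := (hdX.congr_of_eventuallyEq hnorm1.symm).unique hdY
  rw [hval, hvalY] at hu
  simp only [map_smul, smul_eq_mul, zero_apply, add_zero, sub_zero] at hu
  have := mul_left_cancel₀ (by norm_num : (1 / 2 : ℝ) ≠ 0) hu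
  simpa using this

/-- The derivative is isometric on the tangent hyperplane. -/
lemma norm_DF (hX : SmoothNorm X) (hY : SmoothNorm Y) {x : X} (hx : ‖x‖ = 1) {u : X}
    (hu : dN x u = 0) : ‖DF F x u‖ = ‖u‖ := by
  have := (h.chord_main hX hY hx hu (b' := 0) (by simp)).1
  simpa using this

/-- The derivative intertwines the gradients of the norm on the tangent hyperplane. -/
lemma dN_DF (hX : SmoothNorm X) (hY : SmoothNorm Y) {x : X} (hx : ‖x‖ = 1) {u z : X}
    (hu : dN x u = 0) (hz : dN x z = 0) (hu0 : u ≠ 0) :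
    dN (DF F x u) (DF F x z) = dN u z := by
  have hAu : DF F x u ≠ 0 := by
    intro h0
    have := h.norm_DF hX hY hx hu
    rw [h0, norm_zero] at this
    exact hu0 (norm_eq_zero.1 this.symm)
  have h1 : HasDerivAt (fun s : ℝ => ‖u + s • z‖) (dN u z) 0 := by
    simpa using hasDerivAt_norm_line hX (p := u) (v := z) (t := 0) (by simpa using hu0)
  have h2 : HasDerivAt (fun s : ℝ => ‖DF F x u + s • DF F x z‖) (dN (DF F x u) (DF F x z)) 0 := by
    simpa using hasDerivAt_norm_line hY (p := DF F x u) (v := DF F x z) (t := 0) (by simpa using hAu)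
  have h3 : (fun s : ℝ => ‖u + s • z‖) = fun s : ℝ => ‖DF F x u + s • DF F x z‖ := by
    funext s
    have hmem : dN x (u + s • z) = 0 := by simp [hu, hz]
    have := h.norm_DF hX hY hx hmem
    simpa using this.symm
  rw [h3] at h1
  exact (h1.unique h2).symm

/-- The chord relation for orthogonal pairs. -/
lemma chord_relation (hX : SmoothNorm X) (hY : SmoothNorm Y) {x : X} (hx : ‖x‖ = 1) {u m : X}
    (hu : dN x u = 0) (hm : dN x m = 0) (hu0 : u ≠ 0) (hQ : d2N x m u = 0) :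
    dN (DF F x u) (D2F F x m u) = 0 := by
  have hx0 : x ≠ 0 := by
    rintro rfl
    simp at hx
  have hAu : DF F x u ≠ 0 := by
    intro h0
    have := h.norm_DF hX hY hx hu
    rw [h0, norm_zero] at this
    exact hu0 (norm_eq_zero.1 this.symm)
  have ha : dN x (m + u) = 0 := by simp [hu, hm]
  have hb : dN x (m - u) = 0 := by simp [hu, hm]
  have hne : m + u ≠ m - u := by
    intro h0
    have h2 : (2 : ℝ) • u = 0 := by
      rw [two_smul]
      have h4 : m + u - (m - u) = 0 := sub_eq_zero.2 h0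
      have h5 : m + u - (m - u) = u + u := by abel
      rw [← h5]; exact h4
    exact (smul_ne_zero (by norm_num) hu0) h2
  have hrel := (h.chord_main hX hY hx ha hb).2 hne
  have hQs : d2N x u m = 0 := by rw [d2N_symm hX hx0]; exact hQ
  have hq : d2N x (m - u) (m - u) - d2N x (m + u) (m + u) = 0 := by
    simp only [map_add, map_sub, add_apply, sub_apply, hQ, hQs]
    ring
  rw [hq] at hrel
  simp only [zero_smul, zero_add, map_zero] at hrel
  have e1 : DF F x (m + u) - DF F x (m - u) = (2 : ℝ) • DF F x u := by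
    simp only [map_add, map_sub, two_smul]; abel
  have e2 : D2F F x (m + u) (m + u) - D2F F x (m - u) (m - u) = (4 : ℝ) • D2F F x m u := by
    have hs : D2F F x u m = D2F F x m u := h.D2F_symm hx0 u m
    simp only [map_add, map_sub, add_apply, sub_apply, hs]
    have h4 : (4 : ℝ) • D2F F x m u = D2F F x m u + D2F F x m u + D2F F x m u + D2F F x m u := by
      have : (4 : ℝ) = 1 + 1 + 1 + 1 := by norm_num
      rw [this]; simp only [add_smul, one_smul]
    rw [h4]; abel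
  rw [e1, e2, dN_smul hY hAu (by norm_num), map_smul, smul_eq_mul] at hrel
  have := hrel.symm
  rcases mul_eq_zero.1 this with h6 | h6
  · norm_num at h6
  · exact h6

end RadialMap

end Vale.Agent.Lib.P084
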