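import Mathlib

/-! A Stokes type lemma for `C^1` data: if `ν · dW = 0` then `dν ∧ dW = 0`. -/

namespace Vale.Agent.Lib.P084

open scoped Topology
open Filter Set

variable {E G : Type*} [NormedAddCommGroup E] [NormedSpace ℝ E] [NormedAddCommGroup G]
  [NormedSpace ℝ G]

lemma norm_sub_eventually_le {A W : Type*} [TopologicalSpace A] [SeminormedAddCommGroup W]
    {f : A → W} {x : A} (hf : ContinuousAt f x) {ε : ℝ} (hε : 0 < ε) :
    ∀ᶠ a in 𝓝 x, ‖f a - f x‖ ≤ ε := by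
  have h1 := Metric.tendsto_nhds.1 hf ε hε
  filter_upwards [h1] with a ha
  rw [dist_eq_norm] at ha
  exact ha.le

/-- One edge of the Stokes computation. -/
lemma edge_bound {ν : E → G →L[ℝ] ℝ} {W : E → G} {ν' : E → E →L[ℝ] G →L[ℝ] ℝ} {W' : E → E →L[ℝ] G}
    {x : E} {M : E →L[ℝ] G →L[ℝ] ℝ} {L : E →L[ℝ] G} {B : Set E} (hBc : Convex ℝ B)
    {ε : ℝ} (hε : 0 ≤ ε) (hε1 : ε ≤ 1)
    (hν : ∀ a ∈ B, HasFDerivAt ν (ν' a) a) (hW : ∀ a ∈ B, HasFDerivAt W (W' a) a)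
    (hM : ∀ a ∈ B, ‖ν' a - M‖ ≤ ε)
    (h0 : ∀ a ∈ B, ∀ z, ν a (W' a z) = 0)
    (hE : ∀ a ∈ B, ‖W a - W x - L (a - x)‖ ≤ ε * ‖a - x‖)
    (hN : ∀ p ∈ B, ∀ q ∈ B, ‖ν q - ν p - M (q - p)‖ ≤ ε * ‖q - p‖)
    {p z : E} (hp : p ∈ B) (hq : p + z ∈ B) {R : ℝ} (hR0 : 0 ≤ R)
    (hR : ∀ τ ∈ Icc (0 : ℝ) 1, ‖p + τ • z - x‖ ≤ R) :
    |ν (p + z) (W (p + z) - W x - L (p + z - x)) - ν p (W p - W x - L (p - x)) + ν p (L z) +
        (1 / 2) * (M z) (L z)| ≤ ε * ‖z‖ * ((‖M‖ + 1) * R + ‖L‖ * ‖z‖) := by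
  set Ec : E → G := fun a => W a - W x - L (a - x) with hEc
  have hseg : ∀ τ ∈ Icc (0 : ℝ) 1, p + τ • z ∈ B := fun τ hτ => hBc.add_smul_mem hp hq hτ
  set g : ℝ → ℝ := fun τ => ν (p + τ • z) (Ec (p + τ • z)) + τ * ν p (L z) +
    (τ ^ 2 / 2) * (M z) (L z) with hg
  set g' : ℝ → ℝ := fun τ => (ν' (p + τ • z) z) (Ec (p + τ • z)) +
    ν (p + τ • z) (W' (p + τ • z) z - L z) + ν p (L z) + τ * (M z) (L z) with hg'
  have hline : ∀ τ : ℝ, HasDerivAt (fun τ : ℝ => p + τ • z) z τ := fun τ => by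
    simpa using ((hasDerivAt_id τ).smul_const z).const_add p
  have hder : ∀ τ ∈ Icc (0 : ℝ) 1, HasDerivWithinAt g (g' τ) (Icc 0 1) τ := by
    intro τ hτ
    have hq' := hseg τ hτ
    have h1 : HasDerivAt (fun τ : ℝ => ν (p + τ • z)) (ν' (p + τ • z) z) τ :=
      (hν _ hq').comp_hasDerivAt τ (hline τ)
    have h2 : HasDerivAt (fun τ : ℝ => W (p + τ • z)) (W' (p + τ • z) z) τ :=
      (hW _ hq').comp_hasDerivAt τ (hline τ)
    have h3 : HasDerivAt (fun τ : ℝ => L (p + τ • z - x)) (L z) τ :=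
      L.hasFDerivAt.comp_hasDerivAt τ ((hline τ).sub_const x)
    have h4 : HasDerivAt (fun τ : ℝ => Ec (p + τ • z)) (W' (p + τ • z) z - L z) τ :=
      (h2.sub_const (W x)).sub h3
    have h5 := h1.clm_apply h4
    have h6 : HasDerivAt (fun τ : ℝ => τ * ν p (L z)) (ν p (L z)) τ := by
      simpa using (hasDerivAt_id τ).mul_const (ν p (L z))
    have h7 : HasDerivAt (fun τ : ℝ => (τ ^ 2 / 2) * (M z) (L z)) (τ * (M z) (L z)) τ := by
      have : HasDerivAt (fun τ : ℝ => τ ^ 2 / 2) τ τ := by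
        simpa using (hasDerivAt_pow 2 τ).div_const 2
      exact this.mul_const _
    exact ((h5.add h6).add h7).hasDerivWithinAt
  have hbound : ∀ τ ∈ Icc (0 : ℝ) 1, ‖g' τ‖ ≤ ε * ‖z‖ * ((‖M‖ + 1) * R + ‖L‖ * ‖z‖) := by
    intro τ hτ
    have hq' := hseg τ hτ
    set q := p + τ • z with hqdef
    have e1 : ν q (W' q z - L z) = - ν q (L z) := by
      rw [map_sub, h0 q hq' z, zero_sub]
    have e2 : M (q - p) = τ • M z := by
      rw [hqdef, add_sub_cancel_left, map_smul]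
    have e3 : g' τ = (ν' q z) (Ec q) - (ν q - ν p - M (q - p)) (L z) := by
      simp only [hg', ← hqdef, e1, e2, sub_apply, smul_apply, smul_eq_mul]
      ring
    have b1 : ‖ν' q‖ ≤ ‖M‖ + 1 := by
      have := norm_sub_norm_le (ν' q) M
      have h2 := hM q hq'
      linarith
    have b2 : ‖Ec q‖ ≤ ε * R := by
      calc ‖Ec q‖ ≤ ε * ‖q - x‖ := hE q hq'
        _ ≤ ε * R := by gcongr; exact hR τ hτ
    have b3 : ‖q - p‖ ≤ ‖z‖ := by
      rw [hqdef, add_sub_cancel_left, norm_smul, Real.norm_of_nonneg hτ.1]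
      calc τ * ‖z‖ ≤ 1 * ‖z‖ := by gcongr; exact hτ.2
        _ = ‖z‖ := one_mul _
    have t1 : ‖(ν' q z) (Ec q)‖ ≤ (‖M‖ + 1) * ‖z‖ * (ε * R) := by
      calc ‖(ν' q z) (Ec q)‖ ≤ ‖ν' q z‖ * ‖Ec q‖ := ContinuousLinearMap.le_opNorm _ _
        _ ≤ (‖ν' q‖ * ‖z‖) * ‖Ec q‖ := by gcongr; exact ContinuousLinearMap.le_opNorm _ _
        _ ≤ ((‖M‖ + 1) * ‖z‖) * (ε * R) := by gcongr
    have t2 : ‖(ν q - ν p - M (q - p)) (L z)‖ ≤ (ε * ‖z‖) * (‖L‖ * ‖z‖) := by
      calc ‖(ν q - ν p - M (q - p)) (L z)‖ ≤ ‖ν q - ν p - M (q - p)‖ * ‖L z‖ :=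
            ContinuousLinearMap.le_opNorm _ _
        _ ≤ (ε * ‖z‖) * (‖L‖ * ‖z‖) := by
            gcongr
            · exact (hN p hp q hq').trans (by gcongr)
            · exact ContinuousLinearMap.le_opNorm _ _
    rw [e3]
    calc ‖(ν' q z) (Ec q) - (ν q - ν p - M (q - p)) (L z)‖
        ≤ ‖(ν' q z) (Ec q)‖ + ‖(ν q - ν p - M (q - p)) (L z)‖ := norm_sub_le _ _
      _ ≤ (‖M‖ + 1) * ‖z‖ * (ε * R) + (ε * ‖z‖) * (‖L‖ * ‖z‖) := add_le_add t1 t2
      _ = ε * ‖z‖ * ((‖M‖ + 1) * R + ‖L‖ * ‖z‖) := by ring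
  have hmv := (convex_Icc (0 : ℝ) 1).norm_image_sub_le_of_norm_hasDerivWithin_le hder hbound
    (left_mem_Icc.2 zero_le_one) (right_mem_Icc.2 zero_le_one)
  have e4 : g 1 - g 0 = ν (p + z) (W (p + z) - W x - L (p + z - x)) - ν p (W p - W x - L (p - x)) +
      ν p (L z) + (1 / 2) * (M z) (L z) := by
    simp only [hg, hEc, one_smul, zero_smul, add_zero]
    ring
  rw [e4] at hmv
  simpa using hmv

lemma closed_arith {X0 Xa Xab Xb A0 A1 A2 A3 B0 P Q U V C D : ℝ}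
    (e1 : |Xa - X0 + A0 + (1 / 2) * P| ≤ C) (e2 : |Xab - Xa + A1 + (1 / 2) * Q| ≤ C)
    (e3 : |Xb - Xab + -A2 + (1 / 2) * P| ≤ C) (e4 : |X0 - Xb + -A3 + (1 / 2) * Q| ≤ C)
    (n1 : |A1 - B0 - U| ≤ D) (n2 : |A2 - A0 - (P + V)| ≤ D) (n3 : |A3 - B0 - Q| ≤ D) :
    |U - V| ≤ 4 * C + 3 * D := by
  have a1 := abs_le.1 e1
  have a2 := abs_le.1 e2
  have a3 := abs_le.1 e3
  have a4 := abs_le.1 e4
  have a5 := abs_le.1 n1
  have a6 := abs_le.1 n2
  have a7 := abs_le.1 n3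
  rw [abs_le]
  constructor <;> linarith [a1.1, a1.2, a2.1, a2.2, a3.1, a3.2, a4.1, a4.2, a5.1, a5.2, a6.1, a6.2,
    a7.1, a7.2]

/-- If `ν · dW = 0` near `x` for `C^1` data then `dν ∧ dW = 0` at `x`. -/
theorem closedness {ν : E → G →L[ℝ] ℝ} {W : E → G} {ν' : E → E →L[ℝ] G →L[ℝ] ℝ}
    {W' : E → E →L[ℝ] G} {x : E}
    (hν : ∀ᶠ a in 𝓝 x, HasFDerivAt ν (ν' a) a) (hW : ∀ᶠ a in 𝓝 x, HasFDerivAt W (W' a) a)
    (hνc : ContinuousAt ν' x) (hWc : ContinuousAt W' x)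
    (h0 : ∀ᶠ a in 𝓝 x, ∀ z, ν a (W' a z) = 0) (u v : E) :
    ν' x u (W' x v) = ν' x v (W' x u) := by
  set M := ν' x with hMdef
  set L := W' x with hLdef
  set S : ℝ := M u (L v) - M v (L u) with hS
  set s : ℝ := ‖u‖ + ‖v‖ with hs
  have hs0 : 0 ≤ s := by positivity
  set K : ℝ := s ^ 2 * (4 * ‖M‖ + 7 * ‖L‖ + 4) with hK
  have hK0 : 0 ≤ K := by positivity
  have key : ∀ ε : ℝ, 0 < ε → ε ≤ 1 → |S| ≤ ε * K := by
    intro ε hε hε1
    have hc1 : ∀ᶠ a in 𝓝 x, ‖ν' a - M‖ ≤ ε := by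
      filter_upwards [norm_sub_eventually_le (W := E →L[ℝ] G →L[ℝ] ℝ) hνc hε] with a ha
      exact ha
    have hc2 : ∀ᶠ a in 𝓝 x, ‖W' a - L‖ ≤ ε := by
      filter_upwards [norm_sub_eventually_le hWc hε] with a ha
      exact ha
    obtain ⟨δ, hδ, hball⟩ := Metric.eventually_nhds_iff_ball.1
      (hν.and (hW.and (hc1.and (hc2.and h0))))
    set B : Set E := Metric.ball x δ with hB
    have hBc : Convex ℝ B := convex_ball _ _
    have hxB : x ∈ B := Metric.mem_ball_self hδ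
    have hνB : ∀ a ∈ B, HasFDerivAt ν (ν' a) a := fun a ha => (hball a ha).1
    have hWB : ∀ a ∈ B, HasFDerivAt W (W' a) a := fun a ha => (hball a ha).2.1
    have hMB : ∀ a ∈ B, ‖ν' a - M‖ ≤ ε := fun a ha => (hball a ha).2.2.1
    have hLB : ∀ a ∈ B, ‖W' a - L‖ ≤ ε := fun a ha => (hball a ha).2.2.2.1
    have h0B : ∀ a ∈ B, ∀ z, ν a (W' a z) = 0 := fun a ha => (hball a ha).2.2.2.2
    have hE : ∀ a ∈ B, ‖W a - W x - L (a - x)‖ ≤ ε * ‖a - x‖ := by
      intro a ha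
      have h1 := hBc.norm_image_sub_le_of_norm_hasFDerivWithin_le (f := fun a => W a - L a)
        (f' := fun a => W' a - L) (C := ε)
        (fun c hc => ((hWB c hc).sub L.hasFDerivAt).hasFDerivWithinAt) (fun c hc => hLB c hc)
        hxB ha
      have e : W a - L a - (W x - L x) = W a - W x - L (a - x) := by
        rw [map_sub]; abel
      rwa [e] at h1
    have hN : ∀ p ∈ B, ∀ q ∈ B, ‖ν q - ν p - M (q - p)‖ ≤ ε * ‖q - p‖ := by
      intro p hp q hq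
      have h1 := hBc.norm_image_sub_le_of_norm_hasFDerivWithin_le (f := fun a => ν a - M a)
        (f' := fun a => ν' a - M) (C := ε)
        (fun c hc => ((hνB c hc).sub M.hasFDerivAt).hasFDerivWithinAt) (fun c hc => hMB c hc)
        hp hq
      have e : ν q - M q - (ν p - M p) = ν q - ν p - M (q - p) := by
        rw [map_sub]; abel
      rwa [e] at h1
    -- the parallelogram
    set r : ℝ := δ / (2 * (s + 1)) with hr
    have hrpos : 0 < r := by positivity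
    set a : E := r • u with ha
    set b : E := r • v with hb
    set R : ℝ := r * s with hRdef
    have hR0 : 0 ≤ R := by positivity
    have hRδ : R < δ := by
      have h1 : r * (s + 1) = δ / 2 := by
        rw [hr]; field_simp
      have h2 : r * s ≤ r * (s + 1) := by nlinarith
      rw [hRdef]
      linarith
    have hna : ‖a‖ = r * ‖u‖ := by
      rw [ha, norm_smul, Real.norm_of_nonneg hrpos.le]
    have hnb : ‖b‖ = r * ‖v‖ := by
      rw [hb, norm_smul, Real.norm_of_nonneg hrpos.le]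
    have hab : ‖a‖ + ‖b‖ = R := by
      rw [hna, hnb, hRdef, hs]; ring
    have hmem : ∀ c : E, ‖c - x‖ ≤ R → c ∈ B := by
      intro c hc
      rw [hB, Metric.mem_ball, dist_eq_norm]
      linarith
    have m1 : x + a ∈ B := hmem _ (by
      rw [add_sub_cancel_left]; linarith [norm_nonneg b])
    have m2 : x + b ∈ B := hmem _ (by
      rw [add_sub_cancel_left]; linarith [norm_nonneg a])
    have m3 : x + a + b ∈ B := hmem _ (by
      have : x + a + b - x = a + b := by abel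
      rw [this]
      exact (norm_add_le _ _).trans hab.le)
    have e1 := edge_bound hBc hε.le hε1 hνB hWB hMB h0B hE hN hxB m1 hR0 (by
      intro τ hτ
      rw [add_sub_cancel_left, norm_smul τ a, Real.norm_of_nonneg hτ.1]
      have : τ * ‖a‖ ≤ 1 * ‖a‖ := by gcongr; exact hτ.2
      linarith [norm_nonneg b])
    have e2 := edge_bound hBc hε.le hε1 hνB hWB hMB h0B hE hN m1 m3 hR0 (by
      intro τ hτ
      have e : x + a + τ • b - x = a + τ • b := by abel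
      rw [e]
      calc ‖a + τ • b‖ ≤ ‖a‖ + ‖τ • b‖ := norm_add_le _ _
        _ = ‖a‖ + τ * ‖b‖ := by rw [norm_smul τ b, Real.norm_of_nonneg hτ.1]
        _ ≤ ‖a‖ + 1 * ‖b‖ := by gcongr; exact hτ.2
        _ = R := by rw [one_mul, hab])
    have hc3 : x + a + b + (-a) = x + b := by abel
    have e3 := edge_bound (z := -a) hBc hε.le hε1 hνB hWB hMB h0B hE hN m3 (by rw [hc3]; exact m2) hR0 (by
      intro τ hτ
      have e : x + a + b + τ • (-a) - x = (1 - τ) • a + b := by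
        rw [sub_smul, one_smul, smul_neg]; abel
      rw [e]
      calc ‖(1 - τ) • a + b‖ ≤ ‖(1 - τ) • a‖ + ‖b‖ := norm_add_le _ _
        _ = (1 - τ) * ‖a‖ + ‖b‖ := by
          rw [norm_smul (1 - τ) a, Real.norm_of_nonneg (by linarith [hτ.2])]
        _ ≤ 1 * ‖a‖ + ‖b‖ := by
          gcongr
          linarith [hτ.1]
        _ = R := by rw [one_mul, hab])
    have hc4 : x + b + (-b) = x := by abel
    have e4 := edge_bound (z := -b) hBc hε.le hε1 hνB hWB hMB h0B hE hN m2 (by rw [hc4]; exact hxB) hR0 (by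
      intro τ hτ
      have e : x + b + τ • (-b) - x = (1 - τ) • b := by
        rw [sub_smul, one_smul, smul_neg]; abel
      rw [e, norm_smul (1 - τ) b, Real.norm_of_nonneg (by linarith [hτ.2])]
      have : (1 - τ) * ‖b‖ ≤ 1 * ‖b‖ := by
        gcongr
        linarith [hτ.1]
      linarith [norm_nonneg a])
    rw [hc3] at e3
    rw [hc4] at e4
    simp only [norm_neg, map_neg, neg_apply, mul_neg, neg_mul, neg_neg] at e3 e4
    have hbd : ∀ z : E, ‖z‖ ≤ R → ε * ‖z‖ * ((‖M‖ + 1) * R + ‖L‖ * ‖z‖) ≤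
        ε * R ^ 2 * (‖M‖ + ‖L‖ + 1) := by
      intro z hz
      calc ε * ‖z‖ * ((‖M‖ + 1) * R + ‖L‖ * ‖z‖) ≤ ε * R * ((‖M‖ + 1) * R + ‖L‖ * R) := by gcongr
        _ = ε * R ^ 2 * (‖M‖ + ‖L‖ + 1) := by ring
    have hnaR : ‖a‖ ≤ R := by linarith [norm_nonneg b]
    have hnbR : ‖b‖ ≤ R := by linarith [norm_nonneg a]
    -- first order expansions of `ν`
    have hnp : ∀ (c y : E), x + c ∈ B → ‖c‖ ≤ R → ‖y‖ ≤ R →
        |ν (x + c) (L y) - ν x (L y) - (M c) (L y)| ≤ ε * R ^ 2 * ‖L‖ := by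
      intro c y hc hcR hyR
      have h1 := hN x hxB (x + c) hc
      rw [add_sub_cancel_left] at h1
      have h2 : |(ν (x + c) - ν x - M c) (L y)| ≤ ‖ν (x + c) - ν x - M c‖ * ‖L y‖ := by
        rw [← Real.norm_eq_abs]
        exact ContinuousLinearMap.le_opNorm _ _
      have h3 : ‖L y‖ ≤ ‖L‖ * R := by
        calc ‖L y‖ ≤ ‖L‖ * ‖y‖ := ContinuousLinearMap.le_opNorm _ _
          _ ≤ ‖L‖ * R := by gcongr
      calc |ν (x + c) (L y) - ν x (L y) - (M c) (L y)| = |(ν (x + c) - ν x - M c) (L y)| := by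
            simp only [sub_apply]
        _ ≤ ‖ν (x + c) - ν x - M c‖ * ‖L y‖ := h2
        _ ≤ (ε * R) * (‖L‖ * R) := by
            gcongr
            exact h1.trans (by gcongr)
        _ = ε * R ^ 2 * ‖L‖ := by ring
    have n1 := hnp a b m1 hnaR hnbR
    have n2 := hnp (a + b) a (by rw [← add_assoc]; exact m3)
      ((norm_add_le _ _).trans hab.le) hnaR
    have n3 := hnp b b m2 hnbR hnbR
    rw [← add_assoc] at n2
    have hM2 : (M (a + b)) (L a) = (M a) (L a) + (M b) (L a) := by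
      simp only [map_add, add_apply]
    rw [hM2] at n2
    have hmain : |(M a) (L b) - (M b) (L a)| ≤ ε * R ^ 2 * (4 * ‖M‖ + 7 * ‖L‖ + 4) := by
      have h1 := closed_arith (e1.trans (hbd a hnaR)) (e2.trans (hbd b hnbR))
        (e3.trans (hbd a hnaR)) (e4.trans (hbd b hnbR)) n1 n2 n3
      refine h1.trans (le_of_eq ?_)
      ring
    have hexp : (M a) (L b) - (M b) (L a) = r ^ 2 * S := by
      simp only [ha, hb, hS, map_smul, smul_apply, smul_eq_mul]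
      ring
    rw [hexp, abs_mul, abs_of_pos (by positivity : 0 < r ^ 2), hRdef] at hmain
    have hr2 : 0 < r ^ 2 := by positivity
    have hfin : r ^ 2 * |S| ≤ r ^ 2 * (ε * K) := by
      calc r ^ 2 * |S| ≤ ε * (r * s) ^ 2 * (4 * ‖M‖ + 7 * ‖L‖ + 4) := hmain
        _ = r ^ 2 * (ε * K) := by rw [hK]; ring
    exact le_of_mul_le_mul_left hfin hr2
  have hS0 : S = 0 := by
    by_contra hne
    have hpos : 0 < |S| := abs_pos.2 hne
    set ε : ℝ := min 1 (|S| / (2 * (K + 1))) with hεdef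
    have hε : 0 < ε := lt_min one_pos (by positivity)
    have h1 := key ε hε (min_le_left _ _)
    have h2 : ε ≤ |S| / (2 * (K + 1)) := min_le_right _ _
    have h3 : ε * K ≤ |S| / (2 * (K + 1)) * K := by gcongr
    have h4 : |S| / (2 * (K + 1)) * K ≤ |S| / 2 := by
      have : K / (K + 1) ≤ 1 := by
        rw [div_le_one (by positivity)]
        linarith
      calc |S| / (2 * (K + 1)) * K = |S| / 2 * (K / (K + 1)) := by field_simp
        _ ≤ |S| / 2 * 1 := by gcongr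
        _ = |S| / 2 := mul_one _
    linarith
  exact sub_eq_zero.1 hS0

end Vale.Agent.Lib.P084
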