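/-
The class of spaces `C₀(L, E)`, `L` infinite locally compact Hausdorff, `E` a nonzero real normed space.
-/
import Mathlib.Topology.ContinuousMap.ZeroAtInfty
import Mathlib.Analysis.Normed.Module.Basic
import Mathlib.Analysis.Normed.Operator.LinearIsometry

namespace Vale.Agent.Lib.P084.C0

open scoped ZeroAtInfty

universe u

/-- `X` is linearly isometric to a space `C₀(L, E)`, `L` infinite locally compact Hausdorff, `E` a
nonzero real normed space. -/
def IsVectorC0H (X : Type u) [NormedAddCommGroup X] [NormedSpace ℝ X] : Prop :=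
  ∃ (L : Type u) (E : Type u) (_ : TopologicalSpace L) (_ : LocallyCompactSpace L) (_ : T2Space L)
    (_ : Infinite L) (_ : NormedAddCommGroup E) (_ : NormedSpace ℝ E) (_ : Nontrivial E),
    Nonempty (X ≃ₗᵢ[ℝ] C₀(L, E))

end Vale.Agent.Lib.P084.C0
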