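import Vale.Agent.Lib.P084.Chord

/-! In a strictly convex finite dimensional space with smooth norm, the second derivative of the
norm is positive definite on tangent hyperplanes at a dense set of unit vectors. -/

namespace Vale.Agent.Lib.P084

open scoped ContDiff Topology
open Set Filter Asymptotics

/-- Second order Taylor expansion from two derivatives at the base point. -/
lemma taylor_two {h h1 : ℝ → ℝ} {c : ℝ} (hh : ∀ᶠ t in 𝓝 (0 : ℝ), HasDerivAt h (h1 t) t)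
    (h2 : HasDerivAt h1 c 0) :
    (fun t : ℝ => h t - h 0 - t * h1 0 - (t ^ 2 / 2) * c) =o[𝓝 0] fun t : ℝ => t ^ 2 := by
  obtain ⟨ε, hε, hball⟩ := Metric.eventually_nhds_iff_ball.1 hh
  set s : Set ℝ := Metric.ball (0 : ℝ) ε with hs
  have hsc : Convex ℝ s := convex_ball _ _
  have h0s : (0 : ℝ) ∈ s := Metric.mem_ball_self hε
  set ρ : ℝ → ℝ := fun t => h t - t * h1 0 - (t ^ 2 / 2) * c with hρdef
  set ρ' : ℝ → ℝ := fun t => h1 t - h1 0 - t * c with hρ'def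
  have hρ : ∀ t ∈ s, HasDerivWithinAt ρ (ρ' t) s t := by
    intro t ht
    have a1 := hball t ht
    have a2 : HasDerivAt (fun t : ℝ => t * h1 0) (h1 0) t := by
      simpa using (hasDerivAt_id t).mul_const (h1 0)
    have a3 : HasDerivAt (fun t : ℝ => (t ^ 2 / 2) * c) (t * c) t := by
      have : HasDerivAt (fun t : ℝ => t ^ 2 / 2) t t := by
        simpa using (hasDerivAt_pow 2 t).div_const 2
      exact this.mul_const c
    exact ((a1.sub a2).sub a3).hasDerivWithinAt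
  have hnhds : 𝓝[s] (0 : ℝ) = 𝓝 0 := nhdsWithin_eq_nhds.2 (Metric.ball_mem_nhds _ hε)
  have hρ' : ρ' =o[𝓝[s] 0] (fun t : ℝ => (t - 0) ^ 1) := by
    rw [hnhds]
    have := h2.isLittleO
    simpa [hρ'def] using this
  have key := hsc.isLittleO_pow_succ_real h0s hρ hρ'
  rw [hnhds] at key
  have e : (fun t : ℝ => h t - h 0 - t * h1 0 - (t ^ 2 / 2) * c) = fun t => ρ t - ρ 0 := by
    funext t
    simp only [hρdef]
    ring
  rw [e]
  simpa using key

variable {E : Type*} [NormedAddCommGroup E] [NormedSpace ℝ E]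

lemma norm_line_taylor (hE : SmoothNorm E) {x u : E} (hx0 : x ≠ 0) :
    (fun t : ℝ => ‖x + t • u‖ - ‖x‖ - t * dN x u - (t ^ 2 / 2) * d2N x u u) =o[𝓝 0]
      fun t : ℝ => t ^ 2 := by
  have h1 : ∀ᶠ t in 𝓝 (0 : ℝ), HasDerivAt (fun t : ℝ => ‖x + t • u‖) (dN (x + t • u) u) t := by
    filter_upwards [eventually_line (a' := u) (isOpen_ne.mem_nhds hx0)] with t ht
    exact hasDerivAt_norm_line hE ht
  have h0x : x + (0 : ℝ) • u = x := by simp
  have h2 : HasDerivAt (fun t : ℝ => dN (x + t • u) u) (d2N x u u) 0 := by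
    have h3 : HasFDerivAt dN (d2N x) (x + (0 : ℝ) • u) := by
      rw [h0x]; exact hasFDerivAt_dN hE hx0
    have h4 := (hasFDerivAt_apply_const h3 u).comp_hasDerivAt (0 : ℝ) (hasDerivAt_line x u 0)
    simpa [Function.comp_def] using h4
  simpa using taylor_two h1 h2

/-- Positive semidefiniteness on the tangent hyperplane. -/
lemma d2N_nonneg (hE : SmoothNorm E) {x u : E} (hx : ‖x‖ = 1) (hu : dN x u = 0) :
    0 ≤ d2N x u u := by
  have hx0 : x ≠ 0 := by
    rintro rfl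
    simp at hx
  by_contra hcon
  push Not at hcon
  set c := d2N x u u with hc
  have hT := norm_line_taylor hE (u := u) hx0
  have hev := isLittleO_iff.1 hT (show 0 < -c / 4 by linarith)
  obtain ⟨t, ht, ht0⟩ := (hev.filter_mono nhdsWithin_le_nhds |>.and
    (self_mem_nhdsWithin : {(0 : ℝ)}ᶜ ∈ 𝓝[≠] (0 : ℝ))).exists
  have ht0' : t ≠ 0 := ht0
  have hge : 1 ≤ ‖x + t • u‖ := by
    have := dN_le hE hx0 (x + t • u)
    simpa [dN_self hE hx0, hx, hu] using this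
  simp only [hx, hu, mul_zero, sub_zero, Real.norm_eq_abs, norm_pow] at ht
  have hpos : 0 < t ^ 2 := by positivity
  rw [sq_abs] at ht
  have h1 := le_of_abs_le ht
  have h2 := (abs_le.1 ht).1
  nlinarith

lemma unit_smul_aux {z : E} (hz : z ≠ 0) : ‖‖z‖⁻¹ • z‖ = 1 := by
  simpa using norm_smul_inv_norm (𝕜 := ℝ) hz

/-- Strict convexity: the gradient at a unit vector equals one only there. -/
lemma dN_lt_one [StrictConvexSpace ℝ E] (hE : SmoothNorm E) {x z : E} (hx : ‖x‖ = 1) (hz : ‖z‖ = 1)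
    (hne : z ≠ x) : dN x z < 1 := by
  have hx0 : x ≠ 0 := by
    rintro rfl
    simp at hx
  have hle := dN_le hE hx0 z
  rw [hz] at hle
  refine lt_of_le_of_ne hle ?_
  intro h1
  have h2 : 2 ≤ ‖z + x‖ := by
    have := dN_le hE hx0 (z + x)
    rw [map_add, h1, dN_self hE hx0, hx] at this
    linarith
  have h3 : ‖z + x‖ = ‖z‖ + ‖x‖ := le_antisymm (norm_add_le _ _) (by rw [hz, hx]; linarith)
  exact hne (eq_of_norm_eq_of_norm_add_eq (by rw [hz, hx]) h3)

/-- Caps around a unit vector cut out by its gradient are small. -/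
lemma exists_small_cap [FiniteDimensional ℝ E] [StrictConvexSpace ℝ E] (hE : SmoothNorm E) {x₀ : E}
    (hx₀ : ‖x₀‖ = 1) {ε : ℝ} (hε : 0 < ε) :
    ∃ δ : ℝ, 0 < δ ∧ ∀ z : E, ‖z‖ = 1 → 1 - δ ≤ dN x₀ z → ‖z - x₀‖ < ε := by
  have : ProperSpace E := FiniteDimensional.proper_real E
  set K₁ : Set E := Metric.sphere (0 : E) 1 ∩ {z | ε ≤ ‖z - x₀‖} with hK₁
  have hclosed : IsClosed {z : E | ε ≤ ‖z - x₀‖} :=
    isClosed_le continuous_const (by fun_prop)
  have hK₁c : IsCompact K₁ := (isCompact_sphere (0 : E) 1).inter_right hclosed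
  by_cases hne : K₁.Nonempty
  · obtain ⟨z₁, hz₁, hmax⟩ := hK₁c.exists_isMaxOn hne (dN x₀).continuous.continuousOn
    have hz₁u : ‖z₁‖ = 1 := by simpa using hz₁.1
    have hz₁ne : z₁ ≠ x₀ := by
      rintro rfl
      have := hz₁.2
      simp at this
      linarith
    have hM := dN_lt_one hE hx₀ hz₁u hz₁ne
    refine ⟨(1 - dN x₀ z₁) / 2, by linarith, fun z hz hz2 => ?_⟩
    by_contra hcon
    push Not at hcon
    have hzK : z ∈ K₁ := ⟨by simpa using hz, hcon⟩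
    have := hmax hzK
    simp only [Set.mem_ofPred_eq] at this
    linarith
  · refine ⟨1, one_pos, fun z hz _ => ?_⟩
    by_contra hcon
    push Not at hcon
    exact hne ⟨z, by simpa using hz, hcon⟩

/-- Positive definiteness on tangent hyperplanes at a dense set of unit vectors. -/
theorem exists_pd_near [FiniteDimensional ℝ E] [StrictConvexSpace ℝ E] (hE : SmoothNorm E) {x₀ : E}
    (hx₀ : ‖x₀‖ = 1) {ε : ℝ} (hε : 0 < ε) :
    ∃ x₁ : E, ‖x₁‖ = 1 ∧ ‖x₁ - x₀‖ < ε ∧ ∀ u, dN x₁ u = 0 → u ≠ 0 → 0 < d2N x₁ u u := by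
  have : ProperSpace E := FiniteDimensional.proper_real E
  have hx₀0 : x₀ ≠ 0 := by
    rintro rfl
    simp at hx₀
  obtain ⟨δ, hδ, hcap⟩ := exists_small_cap hE hx₀ hε
  set φ₀ : E →L[ℝ] ℝ := dN x₀ with hφ₀
  have hφ₀x₀ : φ₀ x₀ = 1 := by rw [hφ₀, dN_self hE hx₀0, hx₀]
  set e : E ≃L[ℝ] EuclideanSpace ℝ (Fin (Module.finrank ℝ E)) := toEuclidean with he
  set D : ℝ := ‖(e : E →L[ℝ] EuclideanSpace ℝ (Fin (Module.finrank ℝ E)))‖ * 2 with hD
  have hD0 : 0 ≤ D := by positivity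
  set R : ℝ := (D ^ 2 + 1) / (2 * δ) with hR
  have hRδ : 2 * R * δ = D ^ 2 + 1 := by
    rw [hR]; field_simp
  set ρ : E → ℝ := fun z => ‖e (z - x₀)‖ ^ 2 + 2 * R * (φ₀ z - 1) with hρ
  have hρc : Continuous ρ := by
    simp only [hρ]
    fun_prop
  set K : Set E := Metric.sphere (0 : E) 1 ∩ {z | 1 - δ ≤ φ₀ z} with hK
  have hKclosed : IsClosed {z : E | 1 - δ ≤ φ₀ z} := isClosed_le continuous_const φ₀.continuous
  have hKc : IsCompact K := (isCompact_sphere (0 : E) 1).inter_right hKclosed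
  have hx₀K : x₀ ∈ K := ⟨by simpa using hx₀, by
    simp only [Set.mem_ofPred_eq, hφ₀x₀]; linarith⟩
  obtain ⟨x₁, hx₁K, hmax⟩ := hKc.exists_isMaxOn ⟨x₀, hx₀K⟩ hρc.continuousOn
  have hx₁ : ‖x₁‖ = 1 := by simpa using hx₁K.1
  have hx₁0 : x₁ ≠ 0 := by
    rintro rfl
    simp at hx₁
  have hρx₀ : ρ x₀ = 0 := by simp [hρ, hφ₀x₀]
  have hρx₁ : 0 ≤ ρ x₁ := by
    have := hmax hx₀K
    simp only [Set.mem_ofPred_eq, hρx₀] at this
    exact this
  have hφx₁ : 1 - δ < φ₀ x₁ := by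
    by_contra hcon
    push Not at hcon
    have h1 : ‖e (x₁ - x₀)‖ ≤ D := by
      have h2 : ‖e (x₁ - x₀)‖ ≤ ‖(e : E →L[ℝ] EuclideanSpace ℝ (Fin (Module.finrank ℝ E)))‖ * ‖x₁ - x₀‖ :=
        ContinuousLinearMap.le_opNorm (e : E →L[ℝ] EuclideanSpace ℝ (Fin (Module.finrank ℝ E))) _
      have h3 : ‖x₁ - x₀‖ ≤ 2 := by
        calc ‖x₁ - x₀‖ ≤ ‖x₁‖ + ‖x₀‖ := norm_sub_le _ _
          _ = 2 := by rw [hx₁, hx₀]; norm_num
      calc _ ≤ _ := h2
        _ ≤ D := by rw [hD]; gcongr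
    have h2 : ‖e (x₁ - x₀)‖ ^ 2 ≤ D ^ 2 := by gcongr
    have hRpos : 0 ≤ R := by positivity
    have h3 : 2 * R * (φ₀ x₁ - 1) ≤ 2 * R * (-δ) := by
      apply mul_le_mul_of_nonneg_left _ (by positivity)
      linarith
    have h4 : ρ x₁ ≤ -1 := by
      simp only [hρ]
      nlinarith
    linarith
  refine ⟨x₁, hx₁, hcap x₁ hx₁ hx₁K.2, fun u hu hu0 => ?_⟩
  have hnn := d2N_nonneg hE hx₁ hu
  refine lt_of_le_of_ne hnn (Ne.symm fun hQ0 => ?_)
  -- choose the direction with nonnegative first variation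
  set G : E → ℝ := fun v => 2 * inner ℝ (e (x₁ - x₀)) (e v) + 2 * R * φ₀ v with hG
  have hGneg : ∀ v, G (-v) = -G v := by
    intro v
    simp only [hG, map_neg, inner_neg_right]
    ring
  obtain ⟨v, hv0, hv1, hv2, hv3⟩ : ∃ v : E, v ≠ 0 ∧ dN x₁ v = 0 ∧ d2N x₁ v v = 0 ∧ 0 ≤ G v := by
    by_cases hGu : 0 ≤ G u
    · exact ⟨u, hu0, hu, hQ0, hGu⟩
    · refine ⟨-u, neg_ne_zero.2 hu0, by simp [hu], by simp [hQ0], ?_⟩
      rw [hGneg]
      push Not at hGu
      linarith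
  -- the curve
  set h : ℝ → ℝ := fun t => ‖x₁ + t • v‖ with hh
  have hT : (fun t : ℝ => h t - 1) =o[𝓝 0] fun t : ℝ => t ^ 2 := by
    have := norm_line_taylor hE (u := v) hx₁0
    simpa [hx₁, hv1, hv2] using this
  have hhc : ContinuousAt h 0 := by
    simp only [hh]
    fun_prop
  have hh0 : h 0 = 1 := by simp [hh, hx₁]
  have hlim : Tendsto (fun t => -(h t)⁻¹) (𝓝 0) (𝓝 (-(1 : ℝ)⁻¹)) := by
    have := (hhc.tendsto).inv₀ (by rw [hh0]; norm_num : h 0 ≠ 0)
    rw [hh0] at this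
    exact this.neg
  have hhne : ∀ᶠ t in 𝓝 (0 : ℝ), h t ≠ 0 := by
    exact hhc.eventually_ne (by rw [hh0]; norm_num)
  set q : ℝ → ℝ := fun t => (h t)⁻¹ - 1 with hq
  have hqo : q =o[𝓝 0] fun t : ℝ => t ^ 2 := by
    have h1 := hT.mul_isBigO (hlim.isBigO_one ℝ)
    simp only [mul_one] at h1
    refine h1.congr' ?_ EventuallyEq.rfl
    filter_upwards [hhne] with t ht
    simp only [hq]
    field_simp
    ring
  have hq0 : q 0 = 0 := by simp [hq, hh0]
  have hqc : ContinuousAt q 0 := (hhc.inv₀ (by rw [hh0]; norm_num)).sub continuousAt_const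
  -- the coefficient of the error term
  set c : ℝ → ℝ := fun t => 2 * inner ℝ (e (x₁ + t • v - x₀)) (e (x₁ + t • v)) +
    q t * ‖e (x₁ + t • v)‖ ^ 2 + 2 * R * φ₀ (x₁ + t • v) with hc
  have hcc : ContinuousAt c 0 := by
    simp only [hc]
    have h1 : Continuous (fun t : ℝ => x₁ + t • v) := by fun_prop
    have h2 : Continuous (fun t : ℝ => e (x₁ + t • v)) := e.continuous.comp h1
    have h3 : Continuous (fun t : ℝ => e (x₁ + t • v - x₀)) := e.continuous.comp (h1.sub continuous_const)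
    have h4 : Continuous (fun t : ℝ => φ₀ (x₁ + t • v)) := φ₀.continuous.comp h1
    refine ContinuousAt.add (ContinuousAt.add ?_ ?_) ?_
    · exact (continuous_const.mul (h3.inner h2)).continuousAt
    · exact hqc.mul (h2.norm.pow 2).continuousAt
    · exact (continuous_const.mul h4).continuousAt
  have hqco : (fun t => q t * c t) =o[𝓝 0] fun t : ℝ => t ^ 2 := by
    have h1 := hqo.mul_isBigO (hcc.tendsto.isBigO_one ℝ)
    simpa using h1
  -- the exact expansion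
  have hexp : ∀ t, h t ≠ 0 → ρ ((h t)⁻¹ • (x₁ + t • v)) - ρ x₁ =
      t * G v + t ^ 2 * ‖e v‖ ^ 2 + q t * c t := by
    intro t ht
    have e0 : (h t)⁻¹ = 1 + q t := by simp [hq]
    have e1 : e ((h t)⁻¹ • (x₁ + t • v) - x₀) = (e (x₁ - x₀) + t • e v) + q t • e (x₁ + t • v) := by
      rw [e0, add_smul, one_smul]
      have : x₁ + t • v + q t • (x₁ + t • v) - x₀ = (x₁ - x₀) + t • v + q t • (x₁ + t • v) := by abel
      rw [this]
      simp only [map_add, map_smul]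
    have e2 : e (x₁ + t • v - x₀) = e (x₁ - x₀) + t • e v := by
      have : x₁ + t • v - x₀ = (x₁ - x₀) + t • v := by abel
      rw [this]
      simp only [map_add, map_smul]
    have e3 : φ₀ ((h t)⁻¹ • (x₁ + t • v)) = (1 + q t) * (φ₀ x₁ + t * φ₀ v) := by
      rw [e0]; simp only [map_smul, map_add, smul_eq_mul]
    have e4 : ∀ (a b d : EuclideanSpace ℝ (Fin (Module.finrank ℝ E))) (t q : ℝ),
        ‖a + t • b + q • d‖ ^ 2 = ‖a‖ ^ 2 + 2 * t * inner ℝ a b + t ^ 2 * ‖b‖ ^ 2 +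
          2 * q * inner ℝ (a + t • b) d + q ^ 2 * ‖d‖ ^ 2 := by
      intro a b d t q
      rw [norm_add_sq_real, norm_add_sq_real, norm_smul, norm_smul, inner_smul_right,
        inner_smul_right]
      simp only [Real.norm_eq_abs, mul_pow, sq_abs]
      ring
    have e6 : φ₀ (x₁ + t • v) = φ₀ x₁ + t * φ₀ v := by simp
    simp only [hρ, hc, hG, e1, e2, e3, e4, e6]
    ring
  have hev := isLittleO_iff.1 hqco (show 0 < ‖e v‖ ^ 2 / 2 by
    have : e v ≠ 0 := fun h0 => hv0 (e.injective (by simpa using h0))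
    positivity)
  have hvpos : 0 < ‖e v‖ ^ 2 := by
    have : e v ≠ 0 := fun h0 => hv0 (e.injective (by simpa using h0))
    positivity
  -- points of the curve lie in the cap for small parameters
  have hz0 : ∀ᶠ t in 𝓝 (0 : ℝ), x₁ + t • v ≠ 0 := eventually_line (isOpen_ne.mem_nhds hx₁0)
  have hpc : ContinuousAt (fun t : ℝ => φ₀ ((h t)⁻¹ • (x₁ + t • v))) 0 := by
    have h1 : ContinuousAt (fun t : ℝ => (h t)⁻¹ • (x₁ + t • v)) 0 :=
      (hhc.inv₀ (by rw [hh0]; norm_num)).smul (by fun_prop)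
    exact φ₀.continuous.continuousAt.comp h1
  have hp0 : φ₀ ((h 0)⁻¹ • (x₁ + (0 : ℝ) • v)) = φ₀ x₁ := by simp [hh0]
  have hcapev : ∀ᶠ t in 𝓝 (0 : ℝ), 1 - δ < φ₀ ((h t)⁻¹ • (x₁ + t • v)) :=
    hpc.eventually (lt_mem_nhds (by
      show 1 - δ < φ₀ ((h 0)⁻¹ • (x₁ + (0 : ℝ) • v))
      rw [hp0]; exact hφx₁))
  obtain ⟨t, ⟨⟨ht1, ht2⟩, ht3, ht4⟩, ht5⟩ := (((hev.and hhne).and (hz0.and hcapev)).filter_mono
    (nhdsWithin_le_nhds (s := Ioi 0)) |>.and self_mem_nhdsWithin).exists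
  have htpos : (0 : ℝ) < t := ht5
  have hpK : (h t)⁻¹ • (x₁ + t • v) ∈ K := by
    refine ⟨?_, ht4.le⟩
    have := unit_smul_aux ht3
    simpa using this
  have hmax' : ρ ((h t)⁻¹ • (x₁ + t • v)) ≤ ρ x₁ := hmax hpK
  have hexp' := hexp t ht2
  have hGt : 0 ≤ t * G v := mul_nonneg htpos.le hv3
  have h3 : 0 < t ^ 2 := by positivity
  have ht1' : |q t * c t| ≤ ‖e v‖ ^ 2 / 2 * t ^ 2 := by
    have := ht1
    simp only [Real.norm_eq_abs] at this
    rwa [abs_of_pos h3] at this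
  have h4 := (abs_le.1 ht1').1
  have h5 := mul_pos hvpos h3
  nlinarith

end Vale.Agent.Lib.P084
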