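import Vale.Agent.Lib.P084.Chord
import Vale.Agent.Lib.P084.Algebra
import Vale.Agent.Lib.P084.Closed

/-! At a unit vector where the second derivative of the norm is definite on the tangent hyperplane,
the second derivative of the radial map vanishes. -/

namespace Vale.Agent.Lib.P084

open scoped ContDiff Topology
open Set Filter

variable {X : Type*} [NormedAddCommGroup X] [NormedSpace ℝ X]
variable {Y : Type*} [NormedAddCommGroup Y] [NormedSpace ℝ Y]

namespace RadialMap

variable {F : X → Y} (h : RadialMap F)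
include h

lemma DF_injective (hX : SmoothNorm X) (hY : SmoothNorm Y) {x : X} (hx : ‖x‖ = 1) :
    Function.Injective (DF F x) := by
  have hx0 : x ≠ 0 := by
    rintro rfl
    simp at hx
  rw [injective_iff_map_eq_zero]
  intro v hv
  have h1 : dN x v = 0 := by
    rw [← h.chain1 hX hY hx0 v, hv, map_zero]
  have h2 := h.norm_DF hX hY hx h1
  rw [hv, norm_zero] at h2
  exact norm_eq_zero.1 h2.symm

/-- The first derivative of the norm kills the second derivative of the map. -/
lemma dN_D2F (hX : SmoothNorm X) (hY : SmoothNorm Y) {x : X} (hx : x ≠ 0) (v w : X) :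
    dN (F x) (D2F F x v w) = 0 := by
  have h1 := h.chain2 hX hY hx v w
  have h2 := h.d2N_preserve hX hY hx v w
  linarith

/-- The closedness relation: the cubic form is symmetric in its first and last slots. -/
lemma T_closed (hX : SmoothNorm X) (hY : SmoothNorm Y) {x : X} (hx : x ≠ 0) (u v w : X) :
    d2N (F x) (DF F x u) (D2F F x v w) = d2N (F x) (DF F x v) (D2F F x u w) := by
  have hF0 : F x ≠ 0 := h.F_ne_zero hx
  have hne : ∀ᶠ a in 𝓝 x, a ≠ 0 := isOpen_ne.mem_nhds hx
  have hν : ∀ᶠ a in 𝓝 x, HasFDerivAt (fun z => dN (F z)) ((d2N (F a)).comp (DF F a)) a := by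
    filter_upwards [hne] with a ha
    exact (hasFDerivAt_dN hY (h.F_ne_zero ha)).comp a (h.hasFDerivAt_F ha)
  have hW : ∀ᶠ a in 𝓝 x, HasFDerivAt (fun z => DF F z w) ((D2F F a).flip w) a := by
    filter_upwards [hne] with a ha
    exact hasFDerivAt_apply_const (h.hasFDerivAt_DF ha) w
  have hFc : ContinuousAt F x := (h.hasFDerivAt_F hx).continuousAt
  have hDFc : ContinuousAt (DF F) x := (h.hasFDerivAt_DF hx).continuousAt
  have hd2 : ContinuousAt (fun a => d2N (F a)) x :=
    ContinuousAt.comp (g := (d2N : Y → Y →L[ℝ] Y →L[ℝ] ℝ)) (continuousAt_d2N hY hF0) hFc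
  have hνc : ContinuousAt (fun a => (d2N (F a)).comp (DF F a)) x := hd2.clm_comp hDFc
  have hWc : ContinuousAt (fun a => (D2F F a).flip w) x := by
    have h1 : ContinuousAt (fun a => ContinuousLinearMap.flipₗᵢ ℝ X X Y (D2F F a)) x :=
      (ContinuousLinearMap.flipₗᵢ ℝ X X Y).continuous.continuousAt.comp (h.continuousAt_D2F hx)
    exact h1.clm_apply continuousAt_const
  have h0 : ∀ᶠ a in 𝓝 x, ∀ z, dN (F a) ((D2F F a).flip w z) = 0 := by
    filter_upwards [hne] with a ha z
    exact h.dN_D2F hX hY ha z w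
  have := closedness hν hW hνc hWc h0 u v
  simpa using this

/-- Symmetry of the cubic form. -/
lemma T_symm (hX : SmoothNorm X) (hY : SmoothNorm Y) {x : X} (hx : x ≠ 0) (a b c : X) :
    d2N (F x) (D2F F x a b) (DF F x c) = d2N (F x) (D2F F x a c) (DF F x b) := by
  have hy : F x ≠ 0 := h.F_ne_zero hx
  have e1 : ∀ u v w, d2N (F x) (D2F F x v w) (DF F x u) = d2N (F x) (D2F F x u w) (DF F x v) := by
    intro u v w
    rw [d2N_symm hY hy _ (DF F x u), d2N_symm hY hy _ (DF F x v)]
    exact h.T_closed hX hY hx u v w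
  rw [e1 c a b, h.D2F_symm hx c b, e1 a b c]

theorem D2F_eq_zero [FiniteDimensional ℝ X] [FiniteDimensional ℝ Y] (hX : SmoothNorm X)
    (hY : SmoothNorm Y) (hdim : Module.finrank ℝ X = Module.finrank ℝ Y)
    (hdim3 : 3 ≤ Module.finrank ℝ X) {x : X} (hx : ‖x‖ = 1)
    (hpd : ∀ u, dN x u = 0 → u ≠ 0 → 0 < d2N x u u) (v w : X) : D2F F x v w = 0 := by
  have hx0 : x ≠ 0 := by
    rintro rfl
    simp at hx
  have hAinj := h.DF_injective hX hY hx
  set A := DF F x with hA
  set B := D2F F x with hB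
  -- the inverse of the derivative
  set A' : X ≃ₗ[ℝ] Y := LinearMap.linearEquivOfInjective (A : X →ₗ[ℝ] Y) hAinj hdim with hA'
  set Ainv : Y →L[ℝ] X := LinearMap.toContinuousLinearMap (A'.symm : Y →ₗ[ℝ] X) with hAinv
  have hAAinv : ∀ z, A (Ainv z) = z := fun z => A'.apply_symm_apply z
  set C : X →L[ℝ] X →L[ℝ] X := (ContinuousLinearMap.compL ℝ X Y X Ainv).comp B with hC
  have hCapp : ∀ a b, C a b = Ainv (B a b) := fun a b => rfl
  have hAC : ∀ a b, A (C a b) = B a b := fun a b => hAAinv _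
  set φ : X →L[ℝ] ℝ := dN x with hφ
  set H : Submodule ℝ X := LinearMap.ker (φ : X →ₗ[ℝ] ℝ) with hH
  have hHmem : ∀ z, z ∈ H ↔ φ z = 0 := fun z => by simp [hH]
  have hφC : ∀ a b, φ (C a b) = 0 := by
    intro a b
    rw [hφ, ← h.chain1 hX hY hx0, ← hA, hAC]
    exact h.dN_D2F hX hY hx0 a b
  have hQ' : ∀ a b, d2N x a b = d2N (F x) (A a) (A b) := fun a b =>
    (h.d2N_preserve hX hY hx0 a b).symm
  have hAlg : AlgHyp H (d2N x) C := by
    refine ⟨fun a b => d2N_symm hX hx0 a b, fun a ha ha0 => hpd a ((hHmem a).1 ha) ha0,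
      fun a _ b _ => (hHmem _).2 (hφC a b), fun a b => ?_, fun a b c => ?_⟩
    · rw [hCapp, hCapp, hB, h.D2F_symm hx0 a b]
    · rw [hQ', hQ', hAC, hAC]
      exact h.T_symm hX hY hx0 a b c
  have hfin : 2 ≤ Module.finrank ℝ H := by
    have hφ0 : (φ : X →ₗ[ℝ] ℝ) ≠ 0 := by
      intro h0
      have h1 : φ x = 0 := by
        have := congrArg (fun L : X →ₗ[ℝ] ℝ => L x) h0
        simpa using this
      rw [hφ, dN_self hX hx0, hx] at h1
      norm_num at h1
    have h3 : Module.finrank ℝ H + 1 = Module.finrank ℝ X :=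
      Module.Dual.finrank_ker_add_one_of_ne_zero hφ0
    omega
  have hvan := hAlg.vanish (fun u => dN u) (fun u _ hu0 => by
      rw [dN_self hX hu0]; exact norm_pos_iff.2 hu0)
    (fun u _ hu0 => continuousAt_dN hX hu0)
    (fun u hu hu0 m hm hQm => by
      have hu' := (hHmem u).1 hu
      have hm' := (hHmem m).1 hm
      have h1 := h.chord_relation hX hY hx hu' hm' hu0 hQm
      have h2 := h.dN_DF hX hY hx hu' (hφC m u) hu0
      rw [← h2, ← hA, hAC]
      exact h1) hfin
  have hB0 : ∀ a b, φ a = 0 → φ b = 0 → B a b = 0 := by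
    intro a b ha hb
    rw [← hAC, hvan a ((hHmem a).2 ha) b ((hHmem b).2 hb), map_zero]
  have hBx : ∀ b, B x b = 0 := fun b => h.D2F_self hx0 b
  have hBx' : ∀ a, B a x = 0 := fun a => by
    rw [hB, h.D2F_symm hx0, ← hB, hBx]
  have hφx : φ x = 1 := by rw [hφ, dN_self hX hx0, hx]
  have hdecomp : ∀ a, φ (a - (φ a) • x) = 0 := fun a => by
    simp [hφx]
  have e1 : v = (φ v) • x + (v - (φ v) • x) := by abel
  have e2 : w = (φ w) • x + (w - (φ w) • x) := by abel
  rw [e1, e2]
  simp only [map_add, map_smul, add_apply, smul_apply, hBx, hBx', hB0 _ _ (hdecomp v) (hdecomp w),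
    smul_zero, add_zero]

end RadialMap

end Vale.Agent.Lib.P084
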