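import Vale.Agent.Lib.P084.Regularity
import Vale.Agent.Lib.P084.Pointwise
import Vale.Agent.Lib.P084.Density

/-! Assembly of the extension theorem. -/

namespace Vale.Agent.Lib.P084

open scoped ContDiff Topology
open Set Filter

variable {X : Type*} [NormedAddCommGroup X] [NormedSpace ℝ X]
variable {Y : Type*} [NormedAddCommGroup Y] [NormedSpace ℝ Y]

namespace SphereIso

/-- The radial extension satisfies all the identities. -/
lemma radialMap [FiniteDimensional ℝ Y] [StrictConvexSpace ℝ Y] {g : X → Y} (h : SphereIso g)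
    (hX : SmoothNorm X) (hY : SmoothNorm Y) : RadialMap (radial g) where
  contDiff := fun _ ha => h.contDiffAt_radial hX hY ha
  norm_eq := h.norm_radial
  smul := fun _ ht a => radial_smul g ht a
  sub_eq := fun _ _ ha hb => h.radial_sub_eq ha hb
  add_eq := fun _ _ ha hb => h.radial_add_eq ha hb

end SphereIso

/-- Vanishing of the second derivative away from the origin. -/
lemma RadialMap.D2F_eq_zero_all [FiniteDimensional ℝ X] [FiniteDimensional ℝ Y]
    [StrictConvexSpace ℝ X] {F : X → Y} (h : RadialMap F)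
    (hX : SmoothNorm X) (hY : SmoothNorm Y) (hdim : Module.finrank ℝ X = Module.finrank ℝ Y)
    (hdim3 : 3 ≤ Module.finrank ℝ X) {a : X} (ha : a ≠ 0) : D2F F a = 0 := by
  have hunit : ∀ x₀ : X, ‖x₀‖ = 1 → D2F F x₀ = 0 := by
    intro x₀ hx₀
    have hx₀0 : x₀ ≠ 0 := by
      rintro rfl
      simp at hx₀
    by_contra hcon
    have hc : ContinuousAt (D2F F) x₀ := h.continuousAt_D2F hx₀0
    have hev := hc.eventually_ne hcon
    obtain ⟨ε, hε, hball⟩ := Metric.eventually_nhds_iff.1 hev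
    obtain ⟨x₁, hx₁, hx₁near, hpd⟩ := exists_pd_near hX hx₀ hε
    apply hball (y := x₁) (by rwa [dist_eq_norm])
    ext v w
    exact h.D2F_eq_zero hX hY hdim hdim3 hx₁ hpd v w
  have hn : 0 < ‖a‖ := norm_pos_iff.2 ha
  have hx1 : ‖‖a‖⁻¹ • a‖ = 1 := by
    simpa using norm_smul_inv_norm (𝕜 := ℝ) ha
  have hx0 : ‖a‖⁻¹ • a ≠ 0 := by
    intro h0
    rw [h0] at hx1
    simp at hx1
  have haeq : ‖a‖ • (‖a‖⁻¹ • a) = a := by
    rw [smul_smul, mul_inv_cancel₀ hn.ne', one_smul]
  ext v w
  have h1 := h.D2F_smul hx0 hn v w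
  rw [haeq, hunit _ hx1] at h1
  simpa using h1

/-- A radial map in dimension at least three is linear. -/
theorem RadialMap.exists_linear [FiniteDimensional ℝ X] [FiniteDimensional ℝ Y]
    [StrictConvexSpace ℝ X] {F : X → Y} (h : RadialMap F)
    (hX : SmoothNorm X) (hY : SmoothNorm Y) (hdim : Module.finrank ℝ X = Module.finrank ℝ Y)
    (hdim3 : 3 ≤ Module.finrank ℝ X) : ∃ A : X →L[ℝ] Y, ∀ a, F a = A a := by
  have hrank : 1 < Module.rank ℝ X := by
    have h1 : (1 : ℕ) < Module.finrank ℝ X := by omega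
    have h2 := Module.finrank_eq_rank ℝ X
    rw [← h2]
    exact_mod_cast h1
  have hconn := (isConnected_compl_singleton_of_one_lt_rank hrank (0 : X)).isPreconnected
  have hopen : IsOpen ({0}ᶜ : Set X) := isOpen_compl_singleton
  have hdiff : DifferentiableOn ℝ (DF F) ({0}ᶜ : Set X) := fun a ha =>
    (h.hasFDerivAt_DF ha).differentiableAt.differentiableWithinAt
  have hzero : ({0}ᶜ : Set X).EqOn (fderiv ℝ (DF F)) 0 := fun a ha =>
    h.D2F_eq_zero_all hX hY hdim hdim3 ha
  have hnt : Nontrivial X := by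
    apply Module.nontrivial_of_finrank_pos (R := ℝ)
    omega
  obtain ⟨a₀, ha₀⟩ := exists_ne (0 : X)
  refine ⟨DF F a₀, fun a => ?_⟩
  by_cases ha : a = 0
  · have h0 := h.norm_eq 0
    rw [norm_zero, norm_eq_zero] at h0
    simp [ha, h0]
  · have hc : DF F a = DF F a₀ := hopen.is_const_of_fderiv_eq_zero hconn hdiff hzero ha ha₀
    rw [← hc, h.DF_self ha]

/-- The extension theorem for maps on the ambient spaces, with equal finite dimensions. -/
theorem SphereIso.exists_linearIsometryEquiv [FiniteDimensional ℝ X] [FiniteDimensional ℝ Y]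
    [StrictConvexSpace ℝ X] [StrictConvexSpace ℝ Y] {g : X → Y} (h : SphereIso g)
    (hX : SmoothNorm X) (hY : SmoothNorm Y) (hdim : Module.finrank ℝ X = Module.finrank ℝ Y)
    (hdim3 : 3 ≤ Module.finrank ℝ X) :
    ∃ T : X ≃ₗᵢ[ℝ] Y, ∀ a, ‖a‖ = 1 → T a = g a := by
  have hR := h.radialMap hX hY
  obtain ⟨A, hA⟩ := hR.exists_linear hX hY hdim hdim3
  have hnorm : ∀ a, ‖A a‖ = ‖a‖ := fun a => by
    rw [← hA, hR.norm_eq]
  let li : X →ₗᵢ[ℝ] Y := ⟨(A : X →ₗ[ℝ] Y), hnorm⟩
  refine ⟨li.toLinearIsometryEquiv hdim, fun a ha => ?_⟩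
  have : A a = g a := by
    rw [← hA, radial_of_unit g ha]
  simpa [li] using this

/-- Strict convexity passes from the target to the source of a sphere isometry. -/
lemma SphereIso.strictConvex [StrictConvexSpace ℝ Y] {g : X → Y} (h : SphereIso g) :
    StrictConvexSpace ℝ X := by
  refine StrictConvexSpace.of_norm_add_ne_two ?_
  intro x y hx hy hne hsum
  set m : X := (1 / 2 : ℝ) • (x + y) with hm
  have hm1 : ‖m‖ = 1 := by
    rw [hm, norm_smul, hsum]; norm_num
  have e1 : x - m = (1 / 2 : ℝ) • (x - y) := by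
    rw [hm, smul_add, smul_sub]
    have : x = (1 / 2 : ℝ) • x + (1 / 2 : ℝ) • x := by
      rw [← add_smul]; norm_num
    nth_rewrite 1 [this]
    abel
  have e2 : m - y = (1 / 2 : ℝ) • (x - y) := by
    rw [hm, smul_add, smul_sub]
    have : y = (1 / 2 : ℝ) • y + (1 / 2 : ℝ) • y := by
      rw [← add_smul]; norm_num
    nth_rewrite 2 [this]
    abel
  have hgx := h.norm_one x hx
  have hgy := h.norm_one y hy
  have hgm := h.norm_one m hm1
  have d1 : ‖g x - g m‖ = (1 / 2 : ℝ) * ‖x - y‖ := by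
    rw [h.dist_eq _ _ hx hm1, e1, norm_smul]; norm_num
  have d2 : ‖g m - g y‖ = (1 / 2 : ℝ) * ‖x - y‖ := by
    rw [h.dist_eq _ _ hm1 hy, e2, norm_smul]; norm_num
  have d3 : ‖g x - g y‖ = ‖x - y‖ := h.dist_eq _ _ hx hy
  have hxy : 0 < ‖x - y‖ := norm_pos_iff.2 (sub_ne_zero.2 hne)
  -- equality in the triangle inequality forces `g m` to be the midpoint
  have heq : g x - g m = g m - g y := by
    apply eq_of_norm_eq_of_norm_add_eq (by rw [d1, d2])
    have : g x - g m + (g m - g y) = g x - g y := by abel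
    rw [this, d1, d2, d3]
    ring
  have hmid : g m = (1 / 2 : ℝ) • (g x + g y) := by
    have h1 : g x + g y = (2 : ℝ) • g m := by
      rw [two_smul]
      exact sub_eq_sub_iff_add_eq_add.1 heq
    rw [h1, smul_smul]
    norm_num
  have hgne : g x ≠ g y := by
    intro h0
    rw [h0, sub_self, norm_zero] at d3
    linarith
  have hlt := (norm_midpoint_lt_iff (x := g x) (y := g y) (by rw [hgx, hgy])).2 hgne
  rw [← hmid, hgm, hgx] at hlt
  exact lt_irrefl _ hlt

/-- Compactness of the unit sphere of the target forces finite dimension. -/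
lemma finiteDimensional_of_sphere (hc : IsCompact (Metric.sphere (0 : Y) 1)) {y₀ : Y} (hy₀ : ‖y₀‖ = 1) :
    FiniteDimensional ℝ Y := by
  have himg : Metric.closedBall (0 : Y) 1 =
      (fun p : ℝ × Y => p.1 • p.2) '' (Icc (0 : ℝ) 1 ×ˢ Metric.sphere (0 : Y) 1) := by
    ext v
    simp only [mem_closedBall_zero_iff, mem_image, mem_prod, mem_Icc, mem_sphere_iff_norm,
      sub_zero, Prod.exists]
    constructor
    · intro hv
      by_cases hv0 : v = 0
      · exact ⟨0, y₀, ⟨⟨le_rfl, zero_le_one⟩, hy₀⟩, by simp [hv0]⟩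
      · have hn : ‖v‖ ≠ 0 := norm_ne_zero_iff.2 hv0
        refine ⟨‖v‖, ‖v‖⁻¹ • v, ⟨⟨norm_nonneg _, hv⟩, ?_⟩, ?_⟩
        · simpa using norm_smul_inv_norm (𝕜 := ℝ) hv0
        · rw [smul_smul, mul_inv_cancel₀ hn, one_smul]
    · rintro ⟨t, y, ⟨⟨ht0, ht1⟩, hy⟩, rfl⟩
      rw [norm_smul, hy, mul_one, Real.norm_of_nonneg ht0]
      exact ht1
  have hcomp : IsCompact (Metric.closedBall (0 : Y) 1) := by
    rw [himg]
    exact (isCompact_Icc.prod hc).image (by fun_prop)
  exact FiniteDimensional.of_isCompact_closedBall₀ ℝ zero_lt_one hcomp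

/-- Every surjective isometry between unit spheres of a finite dimensional space of dimension at
least three with strictly convex `C^2` target and `C^2` source extends to a linear isometry. -/
theorem sphere_isometry_extends [FiniteDimensional ℝ X] [StrictConvexSpace ℝ Y]
    (hX : SmoothNorm X) (hY : SmoothNorm Y) (hdim3 : 3 ≤ Module.finrank ℝ X)
    (f : Metric.sphere (0 : X) 1 → Metric.sphere (0 : Y) 1) (hf : Isometry f)
    (hs : Function.Surjective f) :
    ∃ T : X ≃ₗᵢ[ℝ] Y, ∀ x : Metric.sphere (0 : X) 1, T x = f x := by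
  classical
  have hmemX : ∀ a : X, ‖a‖ = 1 → a ∈ Metric.sphere (0 : X) 1 := fun a ha => by simpa using ha
  have hmemY : ∀ y : Y, ‖y‖ = 1 → y ∈ Metric.sphere (0 : Y) 1 := fun y hy => by simpa using hy
  have hnormX : ∀ a : Metric.sphere (0 : X) 1, ‖(a : X)‖ = 1 := fun a => by simpa using a.2
  have hnormY : ∀ y : Metric.sphere (0 : Y) 1, ‖(y : Y)‖ = 1 := fun y => by simpa using y.2
  -- the ambient maps
  set g : X → Y := fun a => if h : ‖a‖ = 1 then (f ⟨a, hmemX a h⟩ : Y) else 0 with hg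
  have hgv : ∀ a (h : ‖a‖ = 1), g a = f ⟨a, hmemX a h⟩ := fun a h => by simp [hg, h]
  have hfdist : ∀ a b : Metric.sphere (0 : X) 1, ‖(f a : Y) - f b‖ = ‖(a : X) - b‖ := by
    intro a b
    have := hf.dist_eq a b
    simpa [Subtype.dist_eq, dist_eq_norm] using this
  have hG : SphereIso g := by
    refine ⟨fun a ha => ?_, fun a b ha hb => ?_, fun y hy => ?_⟩
    · rw [hgv a ha]; exact hnormY _
    · rw [hgv a ha, hgv b hb, hfdist]
    · obtain ⟨a, ha⟩ := hs ⟨y, hmemY y hy⟩
      refine ⟨a, hnormX a, ?_⟩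
      rw [hgv a (hnormX a)]
      simp [ha]
  set inv : Metric.sphere (0 : Y) 1 → Metric.sphere (0 : X) 1 := Function.surjInv hs with hinv
  have hfinv : ∀ y, f (inv y) = y := Function.surjInv_eq hs
  have hinvf : ∀ a, inv (f a) = a := fun a => hf.injective (hfinv (f a))
  set g' : Y → X := fun y => if h : ‖y‖ = 1 then (inv ⟨y, hmemY y h⟩ : X) else 0 with hg'
  have hg'v : ∀ y (h : ‖y‖ = 1), g' y = inv ⟨y, hmemY y h⟩ := fun y h => by simp [hg', h]
  have hG' : SphereIso g' := by
    refine ⟨fun y hy => ?_, fun y y' hy hy' => ?_, fun a ha => ?_⟩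
    · rw [hg'v y hy]; exact hnormX _
    · rw [hg'v y hy, hg'v y' hy', ← hfdist, hfinv, hfinv]
    · refine ⟨f ⟨a, hmemX a ha⟩, hnormY _, ?_⟩
      rw [hg'v _ (hnormY _)]
      simp [hinvf]
  -- dimension
  have hnt : Nontrivial X := by
    apply Module.nontrivial_of_finrank_pos (R := ℝ)
    omega
  obtain ⟨a₀, ha₀⟩ := exists_ne (0 : X)
  have hunit : ‖‖a₀‖⁻¹ • a₀‖ = 1 := by
    simpa using norm_smul_inv_norm (𝕜 := ℝ) ha₀
  have hcX : IsCompact (Metric.sphere (0 : X) 1) := by
    have : ProperSpace X := FiniteDimensional.proper_real X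
    exact isCompact_sphere (0 : X) 1
  have hcY : IsCompact (Metric.sphere (0 : Y) 1) := by
    have h1 : (Metric.sphere (0 : Y) 1) = Subtype.val '' (Set.range f) := by
      rw [hs.range_eq, image_univ, Subtype.range_coe]
    rw [h1]
    have : CompactSpace (Metric.sphere (0 : X) 1) := isCompact_iff_compactSpace.1 hcX
    exact (isCompact_range hf.continuous).image continuous_subtype_val
  have hFD : FiniteDimensional ℝ Y := finiteDimensional_of_sphere hcY (hG.norm_one _ hunit)
  have hSC : StrictConvexSpace ℝ X := hG.strictConvex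
  have hR := hG.radialMap hX hY
  have hR' := hG'.radialMap hY hX
  have h1 : Module.finrank ℝ X ≤ Module.finrank ℝ Y :=
    LinearMap.finrank_le_finrank_of_injective
      (f := (DF (radial g) (‖a₀‖⁻¹ • a₀) : X →ₗ[ℝ] Y)) (hR.DF_injective hX hY hunit)
  have hunitY := hG.norm_one _ hunit
  have h2 : Module.finrank ℝ Y ≤ Module.finrank ℝ X :=
    LinearMap.finrank_le_finrank_of_injective
      (f := (DF (radial g') (g (‖a₀‖⁻¹ • a₀)) : Y →ₗ[ℝ] X)) (hR'.DF_injective hY hX hunitY)
  obtain ⟨T, hT⟩ := hG.exists_linearIsometryEquiv hX hY (le_antisymm h1 h2) hdim3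
  refine ⟨T, fun x => ?_⟩
  rw [hT x (hnormX x), hgv x (hnormX x)]

end Vale.Agent.Lib.P084
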