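import Mathlib

/-! Calculus of a norm that is `C^2` away from the origin. -/

namespace Vale.Agent.Lib.P084

open scoped ContDiff Topology
open Set Filter

variable {E : Type*} [NormedAddCommGroup E] [NormedSpace ℝ E]

/-- The norm of `E` is `C^2` away from the origin. -/
def SmoothNorm (E : Type*) [NormedAddCommGroup E] [NormedSpace ℝ E] : Prop :=
  ∀ x : E, x ≠ 0 → ContDiffAt ℝ 2 (fun z : E => ‖z‖) x

/-- First derivative of the norm. -/
noncomputable def dN (x : E) : E →L[ℝ] ℝ := fderiv ℝ (fun z : E => ‖z‖) x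

/-- Second derivative of the norm. -/
noncomputable def d2N (x : E) : E →L[ℝ] E →L[ℝ] ℝ := fderiv ℝ dN x

/-- Derivative of an evaluation at a fixed vector. -/
lemma hasFDerivAt_apply_const {X V W : Type*} [NormedAddCommGroup X] [NormedSpace ℝ X]
    [NormedAddCommGroup V] [NormedSpace ℝ V] [NormedAddCommGroup W] [NormedSpace ℝ W]
    {G : X → V →L[ℝ] W} {G' : X →L[ℝ] V →L[ℝ] W} {x : X} (h : HasFDerivAt G G' x) (v : V) :
    HasFDerivAt (fun a => G a v) (G'.flip v) x := by
  simpa using h.clm_apply (hasFDerivAt_const v x)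

section
variable (hE : SmoothNorm E)
include hE

lemma contDiffAt_dN {x : E} (hx : x ≠ 0) : ContDiffAt ℝ 1 (dN : E → E →L[ℝ] ℝ) x :=
  (hE x hx).fderiv_right (by norm_num)

lemma continuousAt_d2N {x : E} (hx : x ≠ 0) : ContinuousAt (d2N : E → E →L[ℝ] E →L[ℝ] ℝ) x :=
  ((contDiffAt_dN hE hx).fderiv_right (m := 0) (by norm_num)).continuousAt

lemma hasFDerivAt_norm {x : E} (hx : x ≠ 0) : HasFDerivAt (fun z : E => ‖z‖) (dN x) x :=
  ((hE x hx).differentiableAt (by norm_num)).hasFDerivAt

lemma hasFDerivAt_dN {x : E} (hx : x ≠ 0) : HasFDerivAt (dN : E → E →L[ℝ] ℝ) (d2N x) x :=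
  ((contDiffAt_dN hE hx).differentiableAt (by norm_num)).hasFDerivAt

lemma continuousAt_dN {x : E} (hx : x ≠ 0) : ContinuousAt (dN : E → E →L[ℝ] ℝ) x :=
  (contDiffAt_dN hE hx).continuousAt

lemma eventually_ne_zero {x : E} (hx : x ≠ 0) : ∀ᶠ z in 𝓝 x, z ≠ 0 :=
  isOpen_ne.mem_nhds hx

/-- Scaling invariance of the first derivative. -/
lemma dN_smul {x : E} (hx : x ≠ 0) {t : ℝ} (ht : 0 < t) : dN (t • x) = dN x := by
  have htx : t • x ≠ 0 := smul_ne_zero ht.ne' hx
  have h1 : HasFDerivAt (fun z : E => ‖t • z‖) ((dN (t • x)).comp (t • ContinuousLinearMap.id ℝ E)) x := by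
    have := (hasFDerivAt_norm hE htx).comp x ((hasFDerivAt_id x).const_smul t)
    simpa [Function.comp_def] using this
  have h2 : HasFDerivAt (fun z : E => ‖t • z‖) (t • dN x) x := by
    have := (hasFDerivAt_norm hE hx).const_mul t
    refine this.congr_of_eventuallyEq (Eventually.of_forall fun z => ?_)
    simp [norm_smul, abs_of_pos ht]
  have h3 := h1.unique h2
  ext v
  have := congrArg (fun L : E →L[ℝ] ℝ => L v) h3
  simp at this
  have h4 : t * dN (t • x) v = t * dN x v := by
    simpa [map_smul] using this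
  exact mul_left_cancel₀ ht.ne' h4

/-- Euler identity. -/
lemma dN_self {x : E} (hx : x ≠ 0) : dN x x = ‖x‖ := by
  have h1 : HasDerivAt (fun t : ℝ => ‖t • x‖) (dN x x) 1 := by
    have hl : HasDerivAt (fun t : ℝ => t • x) x 1 := by
      simpa using (hasDerivAt_id (1 : ℝ)).smul_const x
    have h := (hasFDerivAt_norm hE (x := (1 : ℝ) • x) (by simpa using hx)).comp_hasDerivAt (1 : ℝ) hl
    simpa [Function.comp_def] using h
  have h2 : HasDerivAt (fun t : ℝ => ‖t • x‖) ‖x‖ 1 := by
    have h : HasDerivAt (fun t : ℝ => t * ‖x‖) ‖x‖ 1 := by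
      simpa using (hasDerivAt_id (1 : ℝ)).mul_const ‖x‖
    refine h.congr_of_eventuallyEq ?_
    filter_upwards [lt_mem_nhds (zero_lt_one)] with t ht
    simp [norm_smul, abs_of_pos ht]
  exact h1.unique h2

/-- Derivative of the norm along a line. -/
lemma hasDerivAt_norm_line {p v : E} {t : ℝ} (h : p + t • v ≠ 0) :
    HasDerivAt (fun s : ℝ => ‖p + s • v‖) (dN (p + t • v) v) t := by
  have hl : HasDerivAt (fun s : ℝ => p + s • v) v t := by
    simpa using ((hasDerivAt_id t).smul_const v).const_add p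
  have h' := (hasFDerivAt_norm hE h).comp_hasDerivAt t hl
  simpa [Function.comp_def] using h'

/-- The derivative of the norm has dual norm at most one. -/
lemma dN_le {x : E} (hx : x ≠ 0) (z : E) : dN x z ≤ ‖z‖ := by
  have h1 : HasDerivAt (fun t : ℝ => ‖x + t • z‖) (dN x z) 0 := by
    simpa using hasDerivAt_norm_line hE (p := x) (v := z) (t := 0) (by simpa using hx)
  have h2 := h1.tendsto_slope_zero_right
  refine le_of_tendsto h2 ?_
  filter_upwards [self_mem_nhdsWithin] with t ht
  have ht' : (0 : ℝ) < t := ht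
  have h3 : ‖x + t • z‖ ≤ ‖x‖ + t * ‖z‖ := by
    calc ‖x + t • z‖ ≤ ‖x‖ + ‖t • z‖ := norm_add_le _ _
      _ = ‖x‖ + t * ‖z‖ := by simp [norm_smul, abs_of_pos ht']
  simp only [zero_add, zero_smul, add_zero, smul_eq_mul]
  rw [inv_mul_le_iff₀ ht']
  linarith

/-- Symmetry of the second derivative of the norm. -/
lemma d2N_symm {x : E} (hx : x ≠ 0) (v w : E) : d2N x v w = d2N x w v := by
  have h := (hE x hx).isSymmSndFDerivAt (by simp [minSmoothness_of_isRCLikeNormedField])
  exact h v w

/-- The radial direction lies in the kernel of the second derivative. -/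
lemma d2N_self {x : E} (hx : x ≠ 0) (w : E) : d2N x x w = 0 := by
  have hl : HasDerivAt (fun t : ℝ => t • x) x 1 := by
    simpa using (hasDerivAt_id (1 : ℝ)).smul_const x
  have h1 : HasDerivAt (fun t : ℝ => dN (t • x)) (d2N x x) 1 := by
    have h := (hasFDerivAt_dN hE (x := (1 : ℝ) • x) (by simpa using hx)).comp_hasDerivAt (1 : ℝ) hl
    simpa [Function.comp_def] using h
  have h2 : HasDerivAt (fun t : ℝ => dN (t • x)) (0 : E →L[ℝ] ℝ) 1 := by
    refine (hasDerivAt_const (1 : ℝ) (dN x)).congr_of_eventuallyEq ?_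
    filter_upwards [lt_mem_nhds (zero_lt_one)] with t ht
    exact dN_smul hE hx ht
  have := h1.unique h2
  simp [this]

/-- Scaling of the second derivative. -/
lemma d2N_smul {x : E} (hx : x ≠ 0) {t : ℝ} (ht : 0 < t) (v w : E) :
    d2N (t • x) v w = t⁻¹ * d2N x v w := by
  have htx : t • x ≠ 0 := smul_ne_zero ht.ne' hx
  have hl : HasFDerivAt (fun z : E => t • z) (t • ContinuousLinearMap.id ℝ E) x :=
    (hasFDerivAt_id x).const_smul t
  have h1 : HasFDerivAt (fun z : E => dN (t • z)) ((d2N (t • x)).comp (t • ContinuousLinearMap.id ℝ E)) x :=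
    (hasFDerivAt_dN hE htx).comp x hl
  have h2 : HasFDerivAt (fun z : E => dN (t • z)) (d2N x) x := by
    refine (hasFDerivAt_dN hE hx).congr_of_eventuallyEq ?_
    filter_upwards [eventually_ne_zero hE hx] with z hz
    exact dN_smul hE hz ht
  have h3 := h1.unique h2
  have h4 : d2N x v w = t * d2N (t • x) v w := by
    rw [← h3]; simp
  rw [h4]; field_simp

end

end Vale.Agent.Lib.P084
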