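import Vale.Agent.Lib.P084.NormCalc

/-! Regularity of the radial extension of a sphere isometry, by trilateration. -/

namespace Vale.Agent.Lib.P084

open scoped ContDiff Topology
open Set Filter

universe u

variable {Y : Type u} [NormedAddCommGroup Y] [NormedSpace ℝ Y]

/-- Separation: the derivatives of the distance functions to sphere points separate directions. -/
lemma exists_sphere_point_sep (hY : SmoothNorm Y) {y₀ z : Y} (hy₀ : ‖y₀‖ = 1) (hz : z ≠ 0) :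
    ∃ y : Y, ‖y‖ = 1 ∧ y ≠ y₀ ∧ dN (y₀ - y) z ≠ 0 := by
  have hy₀' : y₀ ≠ 0 := by
    intro h; simp [h] at hy₀
  have hself : dN y₀ y₀ = 1 := by rw [dN_self hY hy₀', hy₀]
  by_cases hφ : dN y₀ z = 0
  · -- find a point on the affine line where the derivative in direction `z` does not vanish
    have hne : ∀ s : ℝ, y₀ + s • z ≠ 0 := by
      intro s h
      have : dN y₀ (y₀ + s • z) = 1 := by simp [hself, hφ]
      rw [h] at this; simp at this
    have hex : ∃ s : ℝ, dN (y₀ + s • z) z ≠ 0 := by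
      by_contra hcon
      push Not at hcon
      have hd : ∀ s : ℝ, HasDerivAt (fun s : ℝ => ‖y₀ + s • z‖) 0 s := fun s => by
        have := hasDerivAt_norm_line hY (p := y₀) (v := z) (t := s) (hne s)
        rwa [hcon s] at this
      have hconst : ∀ s : ℝ, ‖y₀ + s • z‖ = ‖y₀ + (0 : ℝ) • z‖ := fun s =>
        is_const_of_deriv_eq_zero (fun s => (hd s).differentiableAt) (fun s => (hd s).deriv) s 0
      have hzpos : 0 < ‖z‖ := norm_pos_iff.2 hz
      have h3 := hconst (3 / ‖z‖)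
      have h4 : ‖(3 / ‖z‖) • z‖ = 3 := by
        rw [norm_smul, Real.norm_of_nonneg (by positivity)]; field_simp
      have h5 : ‖(3 / ‖z‖) • z‖ ≤ ‖y₀ + (3 / ‖z‖) • z‖ + ‖y₀‖ := by
        have := norm_sub_le (y₀ + (3 / ‖z‖) • z) y₀
        simpa using this
      simp only [zero_smul, add_zero, hy₀] at h3
      linarith
    obtain ⟨s, hs⟩ := hex
    set v : Y := y₀ + s • z with hv
    have hv0 : v ≠ 0 := hne s
    have hφv : dN y₀ v = 1 := by simp [hv, hself, hφ]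
    have hvpos : 0 < ‖v‖ := norm_pos_iff.2 hv0
    -- the function along the ray
    have hk : HasDerivAt (fun τ : ℝ => ‖y₀ + τ • (-v)‖) (-1) 0 := by
      have := hasDerivAt_norm_line hY (p := y₀) (v := -v) (t := 0) (by simpa using hy₀')
      simpa [hφv] using this
    have hlt : ∀ᶠ τ in 𝓝[>] (0 : ℝ), ‖y₀ + τ • (-v)‖ < 1 := by
      have h1 := hk.tendsto_slope_zero_right
      have h2 : ∀ᶠ τ in 𝓝[>] (0 : ℝ), τ⁻¹ • (‖y₀ + (0 + τ) • (-v)‖ - ‖y₀ + (0 : ℝ) • (-v)‖) < 0 :=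
        h1.eventually (gt_mem_nhds (by norm_num : (-1 : ℝ) < 0))
      filter_upwards [h2, self_mem_nhdsWithin] with τ h3 h4
      have h4' : (0 : ℝ) < τ := h4
      simp only [zero_add, zero_smul, add_zero, hy₀, smul_eq_mul] at h3
      have := (inv_mul_lt_iff₀ h4').1 h3
      linarith
    have hlt2 : ∀ᶠ τ in 𝓝[>] (0 : ℝ), τ < 2 / ‖v‖ :=
      Ioo_mem_nhdsGT (by positivity : (0 : ℝ) < 2 / ‖v‖) |> fun h => by
        filter_upwards [h] with τ hτ using hτ.2
    obtain ⟨τ₁, hτ₁, hτ₁', hτ₁pos⟩ := (hlt.and (hlt2.and self_mem_nhdsWithin)).exists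
    have hcont : Continuous (fun τ : ℝ => ‖y₀ + τ • (-v)‖) := by fun_prop
    have hge : 1 ≤ ‖y₀ + (2 / ‖v‖) • (-v)‖ := by
      have h1 : ‖(2 / ‖v‖) • v‖ = 2 := by
        rw [norm_smul, Real.norm_of_nonneg (by positivity)]; field_simp
      have h2 := norm_sub_norm_le ((2 / ‖v‖) • v) y₀
      have h3 : (2 / ‖v‖) • v - y₀ = -(y₀ + (2 / ‖v‖) • (-v)) := by
        simp [sub_eq_add_neg, add_comm]
      rw [h3, norm_neg, h1, hy₀] at h2
      linarith
    obtain ⟨τ, hτmem, hτ⟩ := intermediate_value_Icc (le_of_lt hτ₁') hcont.continuousOn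
      (show (1 : ℝ) ∈ Icc _ _ from ⟨hτ₁.le, hge⟩)
    have hτpos : 0 < τ := lt_of_lt_of_le hτ₁pos hτmem.1
    refine ⟨y₀ - τ • v, ?_, ?_, ?_⟩
    · simpa [sub_eq_add_neg, smul_neg] using hτ
    · intro h
      have : τ • v = 0 := by
        have h' : y₀ - τ • v - y₀ = 0 := by rw [h]; simp
        simpa using h'
      exact (smul_ne_zero hτpos.ne' hv0) this
    · have h6 : y₀ - (y₀ - τ • v) = τ • v := by abel
      rw [h6, dN_smul hY hv0 hτpos]
      exact hs
  · refine ⟨-y₀, by simpa using hy₀, ?_, ?_⟩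
    · intro h
      have : (2 : ℝ) • y₀ = 0 := by
        rw [two_smul]; nth_rewrite 1 [← h]; simp
      simp [hy₀'] at this
    · have h6 : y₀ - -y₀ = (2 : ℝ) • y₀ := by rw [two_smul]; abel
      rw [h6, dN_smul hY hy₀' (by norm_num)]
      exact hφ

/-- A local chart of `Y` by finitely many distance functions to sphere points. -/
lemma exists_chart [FiniteDimensional ℝ Y] (hY : SmoothNorm Y) {y₀ : Y} (hy₀ : ‖y₀‖ = 1) :
    ∃ (ι : Type u) (_ : Fintype ι) (pts : ι → Y) (Θ : (ι → ℝ) → Y),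
      (∀ i, ‖pts i‖ = 1 ∧ pts i ≠ y₀) ∧
      ContDiffAt ℝ 2 Θ (fun i => ‖y₀ - pts i‖) ∧
      ∀ᶠ y in 𝓝 y₀, Θ (fun i => ‖y - pts i‖) = y := by
  classical
  have : ProperSpace Y := FiniteDimensional.proper_real Y
  have : CompleteSpace Y := FiniteDimensional.complete ℝ Y
  -- choose sphere points separating directions
  have hch : ∀ z : Y, ∃ y : Y, z ≠ 0 → (‖y‖ = 1 ∧ y ≠ y₀ ∧ dN (y₀ - y) z ≠ 0) := by
    intro z
    by_cases hz : z = 0
    · exact ⟨y₀, fun h => absurd hz h⟩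
    · obtain ⟨y, hy⟩ := exists_sphere_point_sep hY hy₀ hz
      exact ⟨y, fun _ => hy⟩
  choose P hP using hch
  have hcomp : IsCompact (Metric.sphere (0 : Y) 1) := isCompact_sphere 0 1
  have hne : ∀ z ∈ Metric.sphere (0 : Y) 1, z ≠ 0 := by
    intro z hz h
    simp [h] at hz
  obtain ⟨t, ht, hcov⟩ := hcomp.elim_nhds_subcover
    (fun z => {z' : Y | dN (y₀ - P z) z' ≠ 0})
    (fun z hz => by
      have hopen : IsOpen {z' : Y | dN (y₀ - P z) z' ≠ 0} :=
        isOpen_ne_fun (dN (y₀ - P z)).continuous continuous_const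
      exact hopen.mem_nhds (hP z (hne z hz)).2.2)
  refine ⟨{z // z ∈ t}, inferInstance, fun i => P i.1, ?_⟩
  set pts : {z // z ∈ t} → Y := fun i => P i.1 with hpts
  have hpts1 : ∀ i, ‖pts i‖ = 1 ∧ pts i ≠ y₀ := fun i =>
    ⟨(hP i.1 (hne _ (ht _ i.2))).1, (hP i.1 (hne _ (ht _ i.2))).2.1⟩
  have hne2 : ∀ i, y₀ - pts i ≠ 0 := fun i => sub_ne_zero.2 (hpts1 i).2.symm
  -- the chart map
  set Ψ : Y → ({z // z ∈ t} → ℝ) := fun y i => ‖y - pts i‖ with hΨ
  have hΨC : ContDiffAt ℝ 2 Ψ y₀ := by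
    rw [contDiffAt_pi]
    intro i
    exact (hY _ (hne2 i)).comp y₀ (contDiffAt_id.sub contDiffAt_const)
  set L : Y →L[ℝ] ({z // z ∈ t} → ℝ) := ContinuousLinearMap.pi (fun i => dN (y₀ - pts i)) with hL
  have hΨD : HasFDerivAt Ψ L y₀ := by
    rw [hasFDerivAt_pi']
    intro i
    have h1 := (hasFDerivAt_norm hY (hne2 i)).comp y₀ ((hasFDerivAt_id y₀).sub_const (pts i))
    simpa [hL, Function.comp_def] using h1
  have hLinj : Function.Injective L := by
    rw [injective_iff_map_eq_zero]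
    intro z hz
    by_contra hz0
    have hunit : ‖z‖⁻¹ • z ∈ Metric.sphere (0 : Y) 1 := by
      simpa using norm_smul_inv_norm (𝕜 := ℝ) hz0
    have := hcov hunit
    simp only [mem_iUnion, Set.mem_ofPred_eq, exists_prop] at this
    obtain ⟨p, hp, hp2⟩ := this
    have h0 : dN (y₀ - pts ⟨p, hp⟩) z = 0 := by
      have := congrFun hz ⟨p, hp⟩
      simpa [hL] using this
    apply hp2
    have h1 : dN (y₀ - P p) z = 0 := h0
    simp [h1]
  obtain ⟨Lm, hLm⟩ := ContinuousLinearMap.HasLeftInverse.of_injective_of_finiteDimensional hLinj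
  -- local inverse of the composite with the left inverse
  set f₀ : Y → Y := fun y => Lm (Ψ y) with hf₀
  have hf₀C : ContDiffAt ℝ 2 f₀ y₀ := Lm.contDiff.contDiffAt.comp y₀ hΨC
  have hf₀D : HasFDerivAt f₀ ((ContinuousLinearEquiv.refl ℝ Y : Y ≃L[ℝ] Y) : Y →L[ℝ] Y) y₀ := by
    have h1 := Lm.hasFDerivAt.comp y₀ hΨD
    have h2 : Lm.comp L = ContinuousLinearMap.id ℝ Y := by
      ext y; exact hLm y
    rw [h2] at h1
    simpa [Function.comp_def] using h1
  have hn : (2 : WithTop ℕ∞) ≠ 0 := by norm_num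
  have hinv := hf₀C.to_localInverse hf₀D hn
  have hev := (hf₀C.hasStrictFDerivAt' hf₀D hn).eventually_left_inverse
  refine ⟨fun w => hf₀C.localInverse hf₀D hn (Lm w), hpts1, ?_, ?_⟩
  · exact hinv.comp (fun i => ‖y₀ - pts i‖) Lm.contDiff.contDiffAt
  · filter_upwards [hev] with y hy
    exact hy

variable {X : Type*} [NormedAddCommGroup X] [NormedSpace ℝ X]

/-- A map between ambient spaces that restricts to a surjective isometry of unit spheres. -/
structure SphereIso (g : X → Y) : Prop where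
  norm_one : ∀ a : X, ‖a‖ = 1 → ‖g a‖ = 1
  dist_eq : ∀ a b : X, ‖a‖ = 1 → ‖b‖ = 1 → ‖g a - g b‖ = ‖a - b‖
  surj : ∀ y : Y, ‖y‖ = 1 → ∃ a : X, ‖a‖ = 1 ∧ g a = y

/-- Positively homogeneous extension of a map of spheres. -/
noncomputable def radial (g : X → Y) (a : X) : Y := ‖a‖ • g (‖a‖⁻¹ • a)

lemma unit_smul {a : X} (ha : a ≠ 0) : ‖‖a‖⁻¹ • a‖ = 1 := by
  simpa using norm_smul_inv_norm (𝕜 := ℝ) ha

lemma radial_of_unit (g : X → Y) {a : X} (ha : ‖a‖ = 1) : radial g a = g a := by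
  simp [radial, ha]

lemma radial_zero (g : X → Y) : radial g 0 = 0 := by
  simp [radial]

namespace SphereIso

variable {g : X → Y} (h : SphereIso g)
include h

lemma norm_radial (a : X) : ‖radial g a‖ = ‖a‖ := by
  by_cases ha : a = 0
  · simp [ha, radial_zero]
  · rw [radial, norm_smul, h.norm_one _ (unit_smul ha)]
    simp

omit h in
lemma radial_smul (g : X → Y) {t : ℝ} (ht : 0 < t) (a : X) : radial g (t • a) = t • radial g a := by
  by_cases ha : a = 0
  · simp [ha, radial_zero]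
  · have h1 : ‖t • a‖ = t * ‖a‖ := by simp [norm_smul, abs_of_pos ht]
    have hane : ‖a‖ ≠ 0 := norm_ne_zero_iff.2 ha
    have h2 : ‖t • a‖⁻¹ • (t • a) = ‖a‖⁻¹ • a := by
      rw [h1, smul_smul]
      congr 1
      field_simp
    rw [radial, h2, h1, radial, smul_smul]

lemma radial_sub_eq {a b : X} (ha : a ≠ 0) (hb : b ≠ 0) :
    ‖‖b‖ • a - ‖a‖ • b‖ = ‖‖b‖ • radial g a - ‖a‖ • radial g b‖ := by
  have hane : ‖a‖ ≠ 0 := norm_ne_zero_iff.2 ha
  have hbne : ‖b‖ ≠ 0 := norm_ne_zero_iff.2 hb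
  have h1 : ‖b‖ • a - ‖a‖ • b = (‖a‖ * ‖b‖) • (‖a‖⁻¹ • a - ‖b‖⁻¹ • b) := by
    rw [smul_sub, smul_smul, smul_smul]
    congr 2 <;> field_simp
  have h2 : ‖b‖ • radial g a - ‖a‖ • radial g b =
      (‖a‖ * ‖b‖) • (g (‖a‖⁻¹ • a) - g (‖b‖⁻¹ • b)) := by
    rw [smul_sub, radial, radial, smul_smul, smul_smul]
    congr 2
    ring
  rw [h1, h2, norm_smul, norm_smul, h.dist_eq _ _ (unit_smul ha) (unit_smul hb)]

/-- Oddness on the sphere, by strict convexity of the target. -/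
lemma odd [StrictConvexSpace ℝ Y] {a : X} (ha : ‖a‖ = 1) : g (-a) = -g a := by
  have h1 : ‖-a‖ = 1 := by simpa using ha
  have h2 : ‖g a - g (-a)‖ = 2 := by
    rw [h.dist_eq _ _ ha h1, sub_neg_eq_add, ← two_smul ℝ a, norm_smul, ha]
    simp
  have h3 : g a = -g (-a) := by
    apply eq_of_norm_eq_of_norm_add_eq
    · rw [norm_neg, h.norm_one _ ha, h.norm_one _ h1]
    · rw [norm_neg, h.norm_one _ ha, h.norm_one _ h1, ← sub_eq_add_neg, h2]
      norm_num
  rw [h3, neg_neg]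

lemma radial_neg [StrictConvexSpace ℝ Y] (a : X) : radial g (-a) = -radial g a := by
  by_cases ha : a = 0
  · simp [ha, radial_zero]
  · have h1 : ‖-a‖⁻¹ • (-a) = -(‖a‖⁻¹ • a) := by simp
    rw [radial, h1, h.odd (unit_smul ha), radial, norm_neg, smul_neg]

lemma radial_add_eq [StrictConvexSpace ℝ Y] {a b : X} (ha : a ≠ 0) (hb : b ≠ 0) :
    ‖‖b‖ • a + ‖a‖ • b‖ = ‖‖b‖ • radial g a + ‖a‖ • radial g b‖ := by
  have := h.radial_sub_eq ha (neg_ne_zero.2 hb)
  rw [h.radial_neg, norm_neg] at this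
  simpa [sub_eq_add_neg, smul_neg] using this

/-- The radial extension is `C^2` away from the origin. -/
lemma contDiffAt_radial [FiniteDimensional ℝ Y] (hX : SmoothNorm X) (hY : SmoothNorm Y)
    {a : X} (ha : a ≠ 0) : ContDiffAt ℝ 2 (radial g) a := by
  set x₀ : X := ‖a‖⁻¹ • a with hx₀
  have hx₀1 : ‖x₀‖ = 1 := unit_smul ha
  have hy₀1 : ‖g x₀‖ = 1 := h.norm_one _ hx₀1
  obtain ⟨ι, _, pts, Θ, hpts, hΘ, hev⟩ := exists_chart hY hy₀1
  have hpre : ∀ i, ∃ p : X, ‖p‖ = 1 ∧ g p = pts i := fun i => h.surj _ (hpts i).1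
  choose P hP1 hP2 using hpre
  -- the normalization map
  have hnorm : ContDiffAt ℝ 2 (fun z : X => ‖z‖⁻¹ • z) a :=
    ((hX a ha).inv (norm_ne_zero_iff.2 ha)).smul contDiffAt_id
  -- the chart on the source side
  set Ψ : X → (ι → ℝ) := fun z i => ‖z - P i‖ with hΨ
  have hne : ∀ i, x₀ - P i ≠ 0 := by
    intro i h0
    have h1 : x₀ = P i := sub_eq_zero.1 h0
    apply (hpts i).2
    rw [← hP2 i, ← h1]
  have hΨC : ContDiffAt ℝ 2 Ψ x₀ := by
    rw [contDiffAt_pi]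
    intro i
    exact (hX _ (hne i)).comp x₀ (contDiffAt_id.sub contDiffAt_const)
  have hval : Ψ x₀ = fun i => ‖g x₀ - pts i‖ := by
    funext i
    rw [← hP2 i, h.dist_eq _ _ hx₀1 (hP1 i)]
  have hΘ' : ContDiffAt ℝ 2 Θ (Ψ x₀) := by rw [hval]; exact hΘ
  have hcomp : ContDiffAt ℝ 2 (fun z : X => ‖z‖ • Θ (Ψ (‖z‖⁻¹ • z))) a := by
    refine (hX a ha).smul ?_
    have h3 : ContDiffAt ℝ 2 (fun z : X => Ψ (‖z‖⁻¹ • z)) a :=
      ContDiffAt.comp (f := fun z : X => ‖z‖⁻¹ • z) (g := Ψ) a hΨC hnorm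
    exact ContDiffAt.comp (f := fun z : X => Ψ (‖z‖⁻¹ • z)) (g := Θ) a hΘ' h3
  refine hcomp.congr_of_eventuallyEq ?_
  -- equality of the two expressions near `a`
  obtain ⟨δ, hδ, hball⟩ := Metric.eventually_nhds_iff.1 hev
  have hcont : ContinuousAt (fun z : X => ‖z‖⁻¹ • z) a := hnorm.continuousAt
  have hnear : ∀ᶠ z in 𝓝 a, dist (‖z‖⁻¹ • z) x₀ < δ :=
    hcont.eventually (Metric.ball_mem_nhds x₀ hδ)
  filter_upwards [hnear, eventually_ne_zero hX ha] with z hz hz0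
  have hzu : ‖‖z‖⁻¹ • z‖ = 1 := unit_smul hz0
  have hd : dist (g (‖z‖⁻¹ • z)) (g x₀) < δ := by
    rw [dist_eq_norm, h.dist_eq _ _ hzu hx₀1, ← dist_eq_norm]
    exact hz
  have h1 := hball hd
  have h2 : Ψ (‖z‖⁻¹ • z) = fun i => ‖g (‖z‖⁻¹ • z) - pts i‖ := by
    funext i
    rw [← hP2 i, h.dist_eq _ _ hzu (hP1 i)]
  simp only [radial]
  rw [h2, h1]

end SphereIso

end Vale.Agent.Lib.P084
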